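import Vale.Agent.P025.R2.H373.Gauss

/-!
# P025 G-DISC (T4), local part: long annuli

An element of `F1` (functions on `|t| ≤ 1`) whose zeros and poles in the annulus
`‖c‖ ‖q‖² ≤ |b| ≤ 1` have order divisible by `q` becomes `t ^ n * y ^ q` on the circle `|t| = ‖c‖`,
if `‖c‖ < ‖q‖²`.
-/

set_option linter.unusedSectionVars false

open Polynomial

universe u

namespace P025H469

open P025H373

noncomputable section

variable {C : Type u} [NontriviallyNormedField C] [IsUltrametricDist C] [CompleteSpace C]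
  [IsAlgClosed C]

/-- `x = t ^ n * y ^ q` for some integer `n` and some `y ≠ 0`. -/
def Mon (q : ℕ) (x : F0 C) : Prop := ∃ (n : ℤ) (y : F0 C), y ≠ 0 ∧ x = tt C ^ n * y ^ q

lemma tt_ne_zero : tt C ≠ 0 := by
  intro h
  have := norm_tt (C := C)
  rw [h, norm_zero] at this
  exact zero_ne_one this

lemma Mon.ne_zero {q : ℕ} {x : F0 C} (h : Mon q x) : x ≠ 0 := by
  obtain ⟨n, y, hy, rfl⟩ := h
  exact mul_ne_zero (zpow_ne_zero _ tt_ne_zero) (pow_ne_zero _ hy)

lemma Mon.mul {q : ℕ} {x y : F0 C} (hx : Mon q x) (hy : Mon q y) : Mon q (x * y) := by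
  obtain ⟨n, a, ha, rfl⟩ := hx
  obtain ⟨m, b, hb, rfl⟩ := hy
  refine ⟨n + m, a * b, mul_ne_zero ha hb, ?_⟩
  rw [zpow_add₀ tt_ne_zero, mul_pow]; ring

lemma Mon.inv {q : ℕ} {x : F0 C} (hx : Mon q x) : Mon q x⁻¹ := by
  obtain ⟨n, a, ha, rfl⟩ := hx
  refine ⟨-n, a⁻¹, inv_ne_zero ha, ?_⟩
  rw [mul_inv, zpow_neg, inv_pow]

lemma Mon.one {q : ℕ} : Mon q (1 : F0 C) := ⟨0, 1, one_ne_zero, by simp⟩

lemma Mon.tvar {q : ℕ} : Mon q (P025H373.tt C) := ⟨1, 1, one_ne_zero, by simp⟩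

lemma Mon.npow {q : ℕ} {x : F0 C} (hx : Mon q x) (k : ℕ) : Mon q (x ^ k) := by
  induction k with
  | zero => simpa using Mon.one
  | succ k ih => rw [pow_succ]; exact ih.mul hx

lemma Mon.zpow {q : ℕ} {x : F0 C} (hx : Mon q x) (k : ℤ) : Mon q (x ^ k) := by
  obtain ⟨k, rfl | rfl⟩ := k.eq_nat_or_neg
  · rw [zpow_natCast]; exact hx.npow k
  · rw [zpow_neg, zpow_natCast]; exact (hx.npow k).inv

lemma Mon.prod {q : ℕ} {ι : Type*} (s : Finset ι) (f : ι → F0 C) (h : ∀ i ∈ s, Mon q (f i)) :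
    Mon q (∏ i ∈ s, f i) := by
  classical
  induction s using Finset.induction_on with
  | empty => simpa using Mon.one
  | insert a s ha ih =>
    rw [Finset.prod_insert ha]
    exact (h a (Finset.mem_insert_self _ _)).mul
      (ih fun i hi => h i (Finset.mem_insert_of_mem hi))

lemma Mon.zpow_of_dvd {q : ℕ} {x : F0 C} (hx : x ≠ 0) {k : ℤ} (hk : (q : ℤ) ∣ k) :
    Mon q (x ^ k) := by
  obtain ⟨m, rfl⟩ := hk
  refine ⟨0, x ^ m, zpow_ne_zero _ hx, ?_⟩
  rw [zpow_zero, one_mul, ← zpow_natCast, ← zpow_mul, mul_comm]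

lemma Mon.const {q : ℕ} (hq : q ≠ 0) {a : C} (ha : a ≠ 0) : Mon q (algebraMap C (F0 C) a) := by
  obtain ⟨z, hz⟩ := IsAlgClosed.exists_pow_nat_eq a (Nat.pos_of_ne_zero hq)
  refine ⟨0, algebraMap C (F0 C) z, ?_, ?_⟩
  · intro h
    have h0 : z = 0 := by
      by_contra hz0
      exact hz0 ((_root_.map_eq_zero (algebraMap C (F0 C))).1 h)
    rw [h0, zero_pow hq] at hz
    exact ha hz.symm
  · rw [zpow_zero, one_mul, ← map_pow, hz]

lemma norm_natCast_le_one' (q : ℕ) : ‖(q : C)‖ ≤ 1 := IsUltrametricDist.norm_natCast_le_one C q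

lemma Mon.small {q : ℕ} (hq : (q : C) ≠ 0) {x : F0 C} (h : ‖x - 1‖ < ‖(q : C)‖ ^ 2) :
    Mon q x := by
  have hq0 : q ≠ 0 := by rintro rfl; simp at hq
  obtain ⟨y, -, hy, hy1⟩ := exists_pow_eq (C := C) (A := F0 C) (⊤ : Subring (F0 C))
    (by simp) (fun c => Subring.mem_top _) hq (Subring.mem_top x) h
  refine ⟨0, y, ?_, by rw [zpow_zero, one_mul, hy]⟩
  rintro rfl
  rw [zero_pow hq0] at hy
  rw [← hy, zero_sub, norm_neg, norm_one] at h
  have : ‖(q : C)‖ ^ 2 ≤ 1 := pow_le_one₀ (norm_nonneg _) (norm_natCast_le_one' q)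
  linarith

/-- the winding number version -/
lemma Mon.wind_form {q : ℕ} {x : F0 C} (h : Mon q x) :
    ∃ y : F0 C, y ≠ 0 ∧ x = tt C ^ wind C x * y ^ q := by
  have hn : ∀ n : ℤ, wind C (tt C ^ n) = n := by
    intro n
    have hnat : ∀ k : ℕ, wind C (P025H373.tt C ^ k) = k := by
      intro k
      induction k with
      | zero => simp
      | succ k ih =>
        rw [pow_succ, wind_mul (pow_ne_zero _ tt_ne_zero) tt_ne_zero, ih, wind_tt]; simp
    obtain ⟨k, rfl | rfl⟩ := n.eq_nat_or_neg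
    · rw [zpow_natCast]; exact hnat k
    · rw [zpow_neg, zpow_natCast, wind_inv, hnat k]
  have hpow : ∀ (y : F0 C), y ≠ 0 → ∀ k : ℕ, wind C (y ^ k) = k * wind C y := by
    intro y hy k
    induction k with
    | zero => simp
    | succ k ih =>
      rw [pow_succ, wind_mul (pow_ne_zero _ hy) hy, ih]; push_cast; ring
  obtain ⟨n, y, hy, rfl⟩ := h
  refine ⟨y * tt C ^ (- wind C y), mul_ne_zero hy (zpow_ne_zero _ tt_ne_zero), ?_⟩
  rw [wind_mul (zpow_ne_zero _ tt_ne_zero) (pow_ne_zero _ hy), hn, hpow y hy, mul_pow,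
    zpow_add₀ tt_ne_zero, ← zpow_natCast (P025H373.tt C ^ (- wind C y)) q, ← zpow_mul]
  have : P025H373.tt C ^ ((q : ℤ) * wind C y) * P025H373.tt C ^ (-wind C y * (q : ℤ)) = 1 := by
    rw [← zpow_add₀ tt_ne_zero]
    have : (q : ℤ) * wind C y + -wind C y * (q : ℤ) = 0 := by ring
    rw [this, zpow_zero]
  calc P025H373.tt C ^ n * y ^ q
      = P025H373.tt C ^ n * y ^ q * 1 := by ring
    _ = P025H373.tt C ^ n * y ^ q * (P025H373.tt C ^ ((q : ℤ) * wind C y) *
          P025H373.tt C ^ (-wind C y * (q : ℤ))) := by rw [this]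
    _ = _ := by ring

/-- order of a rational function at a point `b`. -/
def ordC (b : C) (r : RatFunc C) : ℤ :=
  (r.num.rootMultiplicity b : ℤ) - (r.denom.rootMultiplicity b : ℤ)

/-- `c t - b` is a monomial times a `q`-th power if `b` is not in the annulus. -/
lemma Mon.lin {q : ℕ} (hq : (q : C) ≠ 0) {c : C} (hc : c ≠ 0) (hc1 : ‖c‖ < ‖(q : C)‖ ^ 2) {b : C}
    (hb : ‖b‖ < ‖c‖ * ‖(q : C)‖ ^ 2 ∨ 1 < ‖b‖) :
    Mon q (algebraMap C (F0 C) c * tt C - algebraMap C (F0 C) b) := by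
  have hq0 : q ≠ 0 := by rintro rfl; simp at hq
  have hq2 : ‖(q : C)‖ ^ 2 ≤ 1 := pow_le_one₀ (norm_nonneg _) (norm_natCast_le_one' q)
  have hqp : 0 < ‖(q : C)‖ ^ 2 := by positivity
  have hcp : 0 < ‖c‖ := norm_pos_iff.2 hc
  have hcA : algebraMap C (F0 C) c ≠ 0 := (_root_.map_ne_zero _).2 hc
  rcases hb with hb | hb
  · have e : algebraMap C (F0 C) c * tt C - algebraMap C (F0 C) b =
        algebraMap C (F0 C) c * (tt C * (1 - algebraMap C (F0 C) (b / c) * (tt C)⁻¹)) := by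
      rw [map_div₀]
      field_simp [tt_ne_zero (C := C)]
    rw [e]
    refine (Mon.const hq0 hc).mul (Mon.tvar.mul (Mon.small hq ?_))
    have : (1 - algebraMap C (F0 C) (b / c) * (tt C)⁻¹) - 1 =
        - (algebraMap C (F0 C) (b / c) * (tt C)⁻¹) := by ring
    rw [this, norm_neg, norm_mul, norm_inv, norm_tt, norm_algebraMap_C, norm_div, inv_one, mul_one,
      div_lt_iff₀ hcp, mul_comm]
    exact hb
  · have hb0 : b ≠ 0 := by rintro rfl; simp at hb; linarith
    have hbA : algebraMap C (F0 C) b ≠ 0 := (_root_.map_ne_zero _).2 hb0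
    have e : algebraMap C (F0 C) c * tt C - algebraMap C (F0 C) b =
        algebraMap C (F0 C) (-b) * (1 - algebraMap C (F0 C) (c / b) * tt C) := by
      rw [map_div₀, map_neg]
      field_simp
      ring
    rw [e]
    refine (Mon.const hq0 (neg_ne_zero.2 hb0)).mul (Mon.small hq ?_)
    have : (1 - algebraMap C (F0 C) (c / b) * tt C) - 1 =
        - (algebraMap C (F0 C) (c / b) * tt C) := by ring
    rw [this, norm_neg, norm_mul, norm_tt, norm_algebraMap_C, norm_div, mul_one]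
    calc ‖c‖ / ‖b‖ ≤ ‖c‖ := div_le_self hcp.le hb.le
      _ < _ := hc1

/-- The composite `C(t) → F0`, `f(t) ↦ f(c t)`. -/
def sc (c : C) (hc : c ≠ 0) : RatFunc C →ₐ[C] F0 C :=
  (ιA C).comp (scale c hc : RatFunc C ≃ₐ[C] RatFunc C).toAlgHom

lemma sc_apply (c : C) (hc : c ≠ 0) (r : RatFunc C) :
    sc c hc r = algebraMap (RatFunc C) (F0 C) (scale c hc r) := rfl

lemma sc_X (c : C) (hc : c ≠ 0) :
    sc c hc RatFunc.X = algebraMap C (F0 C) c * tt C := by
  rw [sc_apply, scale_X, map_mul]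
  rfl

lemma sc_poly (c : C) (hc : c ≠ 0) (P : C[X]) :
    sc c hc (algebraMap C[X] (RatFunc C) P) = aeval (algebraMap C (F0 C) c * tt C) P := by
  have h : ((sc c hc).comp (IsScalarTower.toAlgHom C C[X] (RatFunc C))) =
      aeval (algebraMap C (F0 C) c * tt C) := by
    apply Polynomial.algHom_ext
    simp [sc_X, RatFunc.algebraMap_X]
  have := congrArg (fun f => f P) h
  simpa using this

lemma sc_poly_prod (c : C) (hc : c ≠ 0) (P : C[X]) :
    sc c hc (algebraMap C[X] (RatFunc C) P) = algebraMap C (F0 C) P.leadingCoeff *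
      (P.roots.map fun b => algebraMap C (F0 C) c * tt C - algebraMap C (F0 C) b).prod := by
  have hs : P.Splits := IsAlgClosed.splits P
  conv_lhs => rw [hs.eq_prod_roots]
  rw [sc_poly, map_mul, aeval_C, map_multiset_prod, Multiset.map_map]
  congr 2
  refine Multiset.map_congr rfl fun b _ => ?_
  simp

lemma lin_ne_zero {c : C} (hc : c ≠ 0) (b : C) :
    algebraMap C (F0 C) c * tt C - algebraMap C (F0 C) b ≠ 0 := by
  intro hb
  have h2 : algebraMap C (F0 C) c * tt C = algebraMap C (F0 C) b := sub_eq_zero.1 hb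
  have hcA : algebraMap C (F0 C) c ≠ 0 := (_root_.map_ne_zero _).2 hc
  have h3 : tt C = algebraMap C (F0 C) (b / c) := by
    rw [map_div₀, ← h2]; field_simp
  have h4 := wind_tt (C := C)
  rw [h3, wind_const] at h4
  exact zero_ne_one h4

/-- Factorization of a rational function, at all radii. -/
lemma exists_sc_eq_prod {r : RatFunc C} (hr : r ≠ 0) :
    ∃ (a : C) (_ : a ≠ 0) (T : Finset C), (∀ b, b ∉ T → ordC b r = 0) ∧
      ∀ (c : C) (hc : c ≠ 0), sc c hc r = algebraMap C (F0 C) a *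
        ∏ b ∈ T, (algebraMap C (F0 C) c * tt C - algebraMap C (F0 C) b) ^ ordC b r := by
  classical
  have h1 : r.num.leadingCoeff ≠ 0 := leadingCoeff_ne_zero.2 (RatFunc.num_ne_zero hr)
  have h2 : r.denom.leadingCoeff ≠ 0 := leadingCoeff_ne_zero.2 r.denom_ne_zero
  set T : Finset C := (r.num.roots + r.denom.roots).toFinset with hT
  refine ⟨r.num.leadingCoeff * r.denom.leadingCoeff⁻¹, mul_ne_zero h1 (inv_ne_zero h2), T,
    ?_, ?_⟩
  · intro b hb
    rw [hT, Multiset.mem_toFinset, Multiset.mem_add, not_or] at hb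
    rw [ordC, ← count_roots, ← count_roots, Multiset.count_eq_zero_of_notMem hb.1,
      Multiset.count_eq_zero_of_notMem hb.2, sub_self]
  intro c hc
  set F : C → F0 C := fun b => algebraMap C (F0 C) c * tt C - algebraMap C (F0 C) b with hF
  have hF0 : ∀ b, F b ≠ 0 := lin_ne_zero hc
  have hprod : ∀ s : Multiset C, s ≤ r.num.roots + r.denom.roots →
      (s.map F).prod = ∏ b ∈ T, F b ^ s.count b := by
    intro s hs
    rw [Finset.prod_multiset_map_count]
    refine Finset.prod_subset ?_ ?_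
    · exact Multiset.toFinset_subset.2 (Multiset.subset_of_le hs)
    · intro x _ hx
      rw [Multiset.mem_toFinset] at hx
      rw [Multiset.count_eq_zero_of_notMem hx, pow_zero]
  have hnum := sc_poly_prod c hc r.num
  have hden := sc_poly_prod c hc r.denom
  rw [hprod _ (Multiset.le_add_right _ _)] at hnum
  rw [hprod _ (Multiset.le_add_left _ _)] at hden
  have hr' : sc c hc r = sc c hc (algebraMap C[X] (RatFunc C) r.num) *
      (sc c hc (algebraMap C[X] (RatFunc C) r.denom))⁻¹ := by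
    conv_lhs => rw [← r.num_div_denom]
    rw [map_div₀, div_eq_mul_inv]
  rw [hr', hnum, hden, mul_inv, map_mul, map_inv₀]
  have : ∏ b ∈ T, F b ^ ordC b r =
      (∏ b ∈ T, F b ^ r.num.roots.count b) * (∏ b ∈ T, F b ^ r.denom.roots.count b)⁻¹ := by
    rw [← Finset.prod_inv_distrib, ← Finset.prod_mul_distrib]
    refine Finset.prod_congr rfl fun b _ => ?_
    rw [ordC, ← count_roots, ← count_roots, zpow_sub₀ (hF0 b), zpow_natCast, zpow_natCast,
      div_eq_mul_inv]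
  rw [this]; ring

lemma Mon.ratFunc_of {q : ℕ} (hq : (q : C) ≠ 0) {c : C} (hc : c ≠ 0)
    {r : RatFunc C} (hr : r ≠ 0)
    (H : ∀ b : C, Mon q (algebraMap C (F0 C) c * tt C - algebraMap C (F0 C) b) ∨
      (q : ℤ) ∣ ordC b r) :
    Mon q (sc c hc r) := by
  have hq0 : q ≠ 0 := by rintro rfl; simp at hq
  obtain ⟨a, ha, T, -, e⟩ := exists_sc_eq_prod hr
  rw [e c hc]
  refine (Mon.const hq0 ha).mul (Mon.prod _ _ fun b _ => ?_)
  rcases H b with hb | hb
  · exact hb.zpow _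
  · exact Mon.zpow_of_dvd (lin_ne_zero hc b) hb

lemma Mon.ratFunc {q : ℕ} (hq : (q : C) ≠ 0) {c : C} (hc : c ≠ 0) (hc1 : ‖c‖ < ‖(q : C)‖ ^ 2)
    {r : RatFunc C} (hr : r ≠ 0)
    (hdiv : ∀ b : C, ‖c‖ * ‖(q : C)‖ ^ 2 ≤ ‖b‖ → ‖b‖ ≤ 1 → (q : ℤ) ∣ ordC b r) :
    Mon q (sc c hc r) := by
  refine Mon.ratFunc_of hq hc hr fun b => ?_
  by_cases hb : ‖c‖ * ‖(q : C)‖ ^ 2 ≤ ‖b‖ ∧ ‖b‖ ≤ 1
  · exact Or.inr (hdiv b hb.1 hb.2)
  · rw [not_and_or, not_le, not_le] at hb
    exact Or.inl (Mon.lin hq hc hc1 hb)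

/-- polynomials are dense in `A1`. -/
lemma exists_poly_near {h : F0 C} (hh : h ∈ A1 C) {δ : ℝ} (hδ : 0 < δ) :
    ∃ P : C[X], ‖h - aeval (tt C) P‖ < δ := by
  have h1 : h ∈ closure ((Algebra.adjoin C {tt C} : Subalgebra C (F0 C)) : Set (F0 C)) := hh
  rw [Metric.mem_closure_iff] at h1
  obtain ⟨z, hz, hd⟩ := h1 δ hδ
  rw [SetLike.mem_coe, Algebra.adjoin_singleton_eq_range_aeval] at hz
  obtain ⟨P, rfl⟩ := hz
  exact ⟨P, by rwa [dist_eq_norm] at hd⟩

lemma norm_aeval_tt (P : C[X]) : ‖aeval (tt C) P‖ = gp P := by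
  have : aeval (tt C) P = algebraMap (RatFunc C) (F0 C) (algebraMap C[X] (RatFunc C) P) := by
    rw [algebraMap_poly_eq]; rfl
  rw [this, P025H373.norm_algebraMap, gauss_poly]

lemma norm_aeval_sub_coeff_zero {c : C} (hc1 : ‖c‖ ≤ 1) (P : C[X]) :
    ‖aeval (algebraMap C (F0 C) c * tt C) P - algebraMap C (F0 C) (P.coeff 0)‖ ≤ ‖c‖ * gp P := by
  have e : aeval (algebraMap C (F0 C) c * tt C) P - algebraMap C (F0 C) (P.coeff 0) =
      ∑ i ∈ Finset.range P.natDegree, algebraMap C (F0 C) (P.coeff (i + 1)) *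
        (algebraMap C (F0 C) c * tt C) ^ (i + 1) := by
    rw [aeval_eq_sum_range, Finset.sum_range_succ']
    simp [Algebra.smul_def]
  rw [e]
  refine IsUltrametricDist.norm_sum_le_of_forall_le_of_nonneg
    (mul_nonneg (norm_nonneg _) (gp_nonneg _)) fun i _ => ?_
  rw [norm_mul, norm_pow, norm_mul, norm_tt, norm_algebraMap_C, norm_algebraMap_C, mul_one,
    pow_succ]
  calc ‖P.coeff (i + 1)‖ * (‖c‖ ^ i * ‖c‖) ≤ gp P * (1 * ‖c‖) := by
        gcongr
        · exact gp_nonneg _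
        · exact norm_coeff_le P _
        · exact pow_le_one₀ (norm_nonneg _) hc1
    _ = ‖c‖ * gp P := by ring

/-- **Long annulus lemma.** -/
theorem long_annulus {q : ℕ} (hq : (q : C) ≠ 0) (c : C) (hc : c ≠ 0)
    (hc1 : ‖c‖ < ‖(q : C)‖ ^ 2) (hle : ‖c‖ ≤ 1) (r : RatFunc C) (hr : r ≠ 0)
    (hdiv : ∀ b : C, ‖c‖ * ‖(q : C)‖ ^ 2 ≤ ‖b‖ → ‖b‖ ≤ 1 → (q : ℤ) ∣ ordC b r)
    {h : F0 C} (hh : h ∈ A1 C) (h1 : ‖h‖ < 1) (x : F1 C)
    (hx : (x : F0 C) = algebraMap (RatFunc C) (F0 C) r * (1 + h)) :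
    ∃ y : F0 C, y ≠ 0 ∧
      (sub1 c hc hle x : F0 C) = tt C ^ wind C (sub1 c hc hle x : F0 C) * y ^ q := by
  have hq0 : q ≠ 0 := by rintro rfl; simp at hq
  have hq2 : ‖(q : C)‖ ^ 2 ≤ 1 := pow_le_one₀ (norm_nonneg _) (norm_natCast_le_one' q)
  have hqp : 0 < ‖(q : C)‖ ^ 2 := by positivity
  apply Mon.wind_form
  -- the factor `1 + h`
  have hmem : h ∈ F1 C := IntermediateField.subset_adjoin _ _ hh
  set h' : F1 C := ⟨h, hmem⟩ with hh'
  have hxx : x = algebraMap (RatFunc C) (F1 C) r * (1 + h') := by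
    apply Subtype.ext
    rw [hx]
    rfl
  rw [hxx, map_mul, map_add, map_one, sub1_algebraMap]
  have e1 : ((algebraMap (RatFunc C) (F1 C) (scale c hc r) * (1 + sub1 c hc hle h') : F1 C) :
      F0 C) = sc c hc r * (1 + (sub1 c hc hle h' : F0 C)) := rfl
  rw [e1]
  refine (Mon.ratFunc hq hc hc1 hr hdiv).mul ?_
  obtain ⟨P, hP⟩ := exists_poly_near hh hqp
  set a : C := P.coeff 0 with ha
  have hPn : gp P < 1 ∨ gp P ≤ ‖h‖ ∨ gp P < ‖(q : C)‖ ^ 2 := by
    right
    rw [← norm_aeval_tt]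
    have : aeval (tt C) P = h + -(h - aeval (tt C) P) := by ring
    rw [this]
    have h3 := IsUltrametricDist.norm_add_le_max h (-(h - aeval (tt C) P))
    rw [norm_neg] at h3
    rcases le_max_iff.1 h3 with h4 | h4
    · left; exact h4
    · right; exact h4.trans_lt hP
  have hPn1 : gp P < 1 := by
    rcases hPn with h | h | h
    · exact h
    · exact h.trans_lt h1
    · exact h.trans_le hq2
  have hPmem : aeval (tt C) P ∈ F1 C := by
    have : aeval (tt C) P = algebraMap (RatFunc C) (F0 C) (algebraMap C[X] (RatFunc C) P) := by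
      rw [algebraMap_poly_eq]; rfl
    rw [this]
    exact (F1 C).algebraMap_mem _
  have hPA : aeval (tt C) P ∈ A1 C := by
    refine Subalgebra.le_topologicalClosure _ ?_
    rw [Algebra.adjoin_singleton_eq_range_aeval]
    exact ⟨P, rfl⟩
  set P' : F1 C := ⟨aeval (tt C) P, hPmem⟩ with hP'
  have hP'e : P' = algebraMap (RatFunc C) (F1 C) (algebraMap C[X] (RatFunc C) P) := by
    apply Subtype.ext
    change aeval (tt C) P = algebraMap (RatFunc C) (F0 C) (algebraMap C[X] (RatFunc C) P)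
    rw [algebraMap_poly_eq]; rfl
  have hsubP : (sub1 c hc hle P' : F0 C) = aeval (algebraMap C (F0 C) c * tt C) P := by
    rw [hP'e, sub1_algebraMap, ← sc_poly c hc P]
    rfl
  have hdiff : ‖(sub1 c hc hle (h' - P') : F0 C)‖ ≤ ‖h - aeval (tt C) P‖ := by
    exact (sub1_mem_A1 c hc hle (h' - P') (by
      change h - aeval (tt C) P ∈ A1 C
      exact sub_mem hh hPA)).2
  have hkey : ‖(sub1 c hc hle h' : F0 C) - algebraMap C (F0 C) a‖ < ‖(q : C)‖ ^ 2 := by
    have e : (sub1 c hc hle h' : F0 C) - algebraMap C (F0 C) a =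
        (sub1 c hc hle (h' - P') : F0 C) +
          (aeval (algebraMap C (F0 C) c * tt C) P - algebraMap C (F0 C) (P.coeff 0)) := by
      rw [map_sub, ← hsubP, ha]
      push_cast
      ring
    rw [e]
    refine (IsUltrametricDist.norm_add_le_max _ _).trans_lt (max_lt (hdiff.trans_lt hP) ?_)
    refine (norm_aeval_sub_coeff_zero hle P).trans_lt ?_
    calc ‖c‖ * gp P ≤ ‖c‖ * 1 := by gcongr
      _ = ‖c‖ := mul_one _
      _ < _ := hc1
  have han : ‖a‖ < 1 := (norm_coeff_le P 0).trans_lt hPn1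
  have ha1 : ‖1 + a‖ = 1 := by
    have := IsUltrametricDist.norm_add_eq_max_of_norm_ne_norm (x := a) (y := (1 : C))
      (by rw [norm_one]; exact han.ne)
    rw [add_comm, this, norm_one, max_eq_right han.le]
  have ha0 : (1 + a) ≠ 0 := by
    intro h; rw [h, norm_zero] at ha1; exact zero_ne_one ha1
  have hA0 : algebraMap C (F0 C) (1 + a) ≠ 0 := (_root_.map_ne_zero _).2 ha0
  have e2 : (1 + (sub1 c hc hle h' : F0 C)) = algebraMap C (F0 C) (1 + a) *
      (1 + ((sub1 c hc hle h' : F0 C) - algebraMap C (F0 C) a) *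
        (algebraMap C (F0 C) (1 + a))⁻¹) := by
    rw [mul_add, mul_one, mul_comm _ (((sub1 c hc hle h' : F0 C) - algebraMap C (F0 C) a) * _),
      mul_assoc, inv_mul_cancel₀ hA0, mul_one, map_add, map_one]
    ring
  rw [e2]
  refine (Mon.const hq0 ha0).mul (Mon.small hq ?_)
  rw [add_sub_cancel_left, norm_mul, norm_inv, norm_algebraMap_C, ha1, inv_one, mul_one]
  exact hkey

end

end P025H469
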