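import Vale.Agent.P025.R2.H469.Annulus

/-!
# P025 G-DISC (T4): long annuli on the side `|t| > 1`, and winding numbers at two radii
-/

set_option linter.unusedSectionVars false

open Polynomial

universe u

namespace P025H469

open P025H373

noncomputable section

variable {C : Type u} [NontriviallyNormedField C] [IsUltrametricDist C] [CompleteSpace C]
  [IsAlgClosed C]

lemma Mon.lin2 {q : ℕ} (hq : (q : C) ≠ 0) {c : C} (hc : c ≠ 0) (hc1 : 1 < ‖c‖ * ‖(q : C)‖ ^ 2)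
    {b : C} (hb : ‖b‖ ≤ 1 ∨ ‖c‖ < ‖b‖ * ‖(q : C)‖ ^ 2) :
    Mon q (algebraMap C (F0 C) c * tt C - algebraMap C (F0 C) b) := by
  have hq0 : q ≠ 0 := by rintro rfl; simp at hq
  have hqp : 0 < ‖(q : C)‖ ^ 2 := by positivity
  have hcp : 0 < ‖c‖ := norm_pos_iff.2 hc
  have hcA : algebraMap C (F0 C) c ≠ 0 := (_root_.map_ne_zero _).2 hc
  rcases hb with hb | hb
  · have e : algebraMap C (F0 C) c * tt C - algebraMap C (F0 C) b =
        algebraMap C (F0 C) c * (tt C * (1 - algebraMap C (F0 C) (b / c) * (tt C)⁻¹)) := by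
      rw [map_div₀]
      field_simp [tt_ne_zero (C := C)]
    rw [e]
    refine (Mon.const hq0 hc).mul (Mon.tvar.mul (Mon.small hq ?_))
    have : (1 - algebraMap C (F0 C) (b / c) * (tt C)⁻¹) - 1 =
        - (algebraMap C (F0 C) (b / c) * (tt C)⁻¹) := by ring
    rw [this, norm_neg, norm_mul, norm_inv, norm_tt, norm_algebraMap_C, norm_div, inv_one, mul_one,
      div_lt_iff₀ hcp, mul_comm]
    exact hb.trans_lt hc1
  · have hb0 : b ≠ 0 := by
      rintro rfl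
      rw [norm_zero, zero_mul] at hb
      exact absurd hb (not_lt.2 hcp.le)
    have hbp : 0 < ‖b‖ := norm_pos_iff.2 hb0
    have hbA : algebraMap C (F0 C) b ≠ 0 := (_root_.map_ne_zero _).2 hb0
    have e : algebraMap C (F0 C) c * tt C - algebraMap C (F0 C) b =
        algebraMap C (F0 C) (-b) * (1 - algebraMap C (F0 C) (c / b) * tt C) := by
      rw [map_div₀, map_neg]
      field_simp
      ring
    rw [e]
    refine (Mon.const hq0 (neg_ne_zero.2 hb0)).mul (Mon.small hq ?_)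
    have : (1 - algebraMap C (F0 C) (c / b) * tt C) - 1 =
        - (algebraMap C (F0 C) (c / b) * tt C) := by ring
    rw [this, norm_neg, norm_mul, norm_tt, norm_algebraMap_C, norm_div, mul_one,
      div_lt_iff₀ hbp, mul_comm]
    exact hb

lemma Mon.ratFunc2 {q : ℕ} (hq : (q : C) ≠ 0) {c : C} (hc : c ≠ 0)
    (hc1 : 1 < ‖c‖ * ‖(q : C)‖ ^ 2) {r : RatFunc C} (hr : r ≠ 0)
    (hdiv : ∀ b : C, 1 < ‖b‖ → ‖b‖ * ‖(q : C)‖ ^ 2 ≤ ‖c‖ → (q : ℤ) ∣ ordC b r) :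
    Mon q (sc c hc r) := by
  refine Mon.ratFunc_of hq hc hr fun b => ?_
  by_cases hb : 1 < ‖b‖ ∧ ‖b‖ * ‖(q : C)‖ ^ 2 ≤ ‖c‖
  · exact Or.inr (hdiv b hb.1 hb.2)
  · rw [not_and_or, not_lt, not_le] at hb
    exact Or.inl (Mon.lin2 hq hc hc1 hb)

/-- `x = r (1 + h)` restricted to a smaller disc at infinity. -/
lemma sub2_eq {c : C} (hc : c ≠ 0) (hle : 1 ≤ ‖c‖) {r : RatFunc C} {h : F0 C} (hh : h ∈ A2 C)
    (x : F2 C) (hx : (x : F0 C) = algebraMap (RatFunc C) (F0 C) r * (1 + h)) :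
    (sub2 c hc hle x : F0 C) = sc c hc r *
      (1 + (sub2 c hc hle ⟨h, IntermediateField.subset_adjoin _ _ hh⟩ : F0 C)) := by
  set h' : F2 C := ⟨h, IntermediateField.subset_adjoin _ _ hh⟩ with hh'
  have hxx : x = algebraMap (RatFunc C) (F2 C) r * (1 + h') := by
    apply Subtype.ext
    rw [hx]
    rfl
  rw [hxx, map_mul, map_add, map_one, sub2_algebraMap]
  rfl

lemma sub2_tt_mul {c : C} (hc : c ≠ 0) (hle : 1 ≤ ‖c‖) (x : F2 C) (a : C) :
    (sub2 c hc hle (algebraMap (RatFunc C) (F2 C) RatFunc.X * (x - algebraMap C (F2 C) a)) :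
      F0 C) = algebraMap C (F0 C) c * tt C * ((sub2 c hc hle x : F0 C) - algebraMap C (F0 C) a) := by
  rw [map_mul, map_sub, AlgHom.commutes, sub2_algebraMap, scale_X]
  have e : (algebraMap (RatFunc C) (F2 C) (RatFunc.C c * RatFunc.X) : F0 C) =
      algebraMap C (F0 C) c * tt C := map_mul (algebraMap (RatFunc C) (F0 C)) _ _
  rw [← e]
  rfl

lemma norm_sub2_sub_const {c : C} (hc : c ≠ 0) (hle : 1 ≤ ‖c‖) (x : F2 C) (a : C)
    (hg : tt C * ((x : F0 C) - algebraMap C (F0 C) a) ∈ A2 C) :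
    ‖(sub2 c hc hle x : F0 C) - algebraMap C (F0 C) a‖ ≤
      ‖(x : F0 C) - algebraMap C (F0 C) a‖ * ‖c‖⁻¹ := by
  have hcp : 0 < ‖c‖ := norm_pos_iff.2 hc
  have h1 := (sub2_mem_A2 c hc hle
    (algebraMap (RatFunc C) (F2 C) RatFunc.X * (x - algebraMap C (F2 C) a)) hg).2
  rw [sub2_tt_mul] at h1
  have h2 : ‖((algebraMap (RatFunc C) (F2 C) RatFunc.X * (x - algebraMap C (F2 C) a) : F2 C) :
      F0 C)‖ = ‖(x : F0 C) - algebraMap C (F0 C) a‖ := by
    change ‖tt C * ((x : F0 C) - algebraMap C (F0 C) a)‖ = _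
    rw [norm_mul, norm_tt, one_mul]
  rw [h2, norm_mul, norm_mul, norm_tt, norm_algebraMap_C, mul_one] at h1
  rw [← div_eq_mul_inv, le_div_iff₀ hcp, mul_comm]
  exact h1

lemma tt_mul_sub_evInf_mem {h : F0 C} (hh : h ∈ A2 C) :
    tt C * (h - algebraMap C (F0 C) (evInf C ⟨h, hh⟩)) ∈ A2 C := by
  set a := evInf C ⟨h, hh⟩ with ha
  set x : A2 C := ⟨h, hh⟩ with hx
  have hk : evInf C (x - algebraMap C (A2 C) a) = 0 := by
    rw [map_sub, AlgHom.commutes, ← ha]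
    exact sub_self _
  have h2 := (evInf_eq_zero_iff (x - algebraMap C (A2 C) a)).1 hk
  have h3 : ((x - algebraMap C (A2 C) a : A2 C) : F0 C) = h - algebraMap C (F0 C) a := by
    rw [Subalgebra.coe_sub, Subalgebra.coe_algebraMap]
  rwa [h3] at h2

/-- restriction of `h ∈ A2` to a smaller disc: it is close to its value at infinity. -/
lemma norm_sub2_sub_evInf {c : C} (hc : c ≠ 0) (hle : 1 ≤ ‖c‖) {h : F0 C} (hh : h ∈ A2 C) :
    ‖(sub2 c hc hle ⟨h, IntermediateField.subset_adjoin _ _ hh⟩ : F0 C) -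
      algebraMap C (F0 C) (evInf C ⟨h, hh⟩)‖ ≤ ‖h‖ * ‖c‖⁻¹ := by
  refine (norm_sub2_sub_const hc hle ⟨h, IntermediateField.subset_adjoin _ _ hh⟩
    (evInf C ⟨h, hh⟩) (tt_mul_sub_evInf_mem hh)).trans ?_
  refine mul_le_mul_of_nonneg_right ?_ (inv_nonneg.2 (norm_nonneg _))
  change ‖h - algebraMap C (F0 C) (evInf C ⟨h, hh⟩)‖ ≤ ‖h‖
  rw [sub_eq_add_neg]
  refine (IsUltrametricDist.norm_add_le_max _ _).trans (max_le le_rfl ?_)
  rw [norm_neg, norm_algebraMap_C]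
  exact norm_evInf_le _

/-- **Long annulus lemma**, on the side `|t| > 1`. -/
theorem long_annulus2 {q : ℕ} (hq : (q : C) ≠ 0) (c : C) (hc : c ≠ 0)
    (hc1 : 1 < ‖c‖ * ‖(q : C)‖ ^ 2) (hle : 1 ≤ ‖c‖) (r : RatFunc C) (hr : r ≠ 0)
    (hdiv : ∀ b : C, 1 < ‖b‖ → ‖b‖ * ‖(q : C)‖ ^ 2 ≤ ‖c‖ → (q : ℤ) ∣ ordC b r)
    {h : F0 C} (hh : h ∈ A2 C) (h1 : ‖h‖ < 1) (x : F2 C)
    (hx : (x : F0 C) = algebraMap (RatFunc C) (F0 C) r * (1 + h)) :
    ∃ y : F0 C, y ≠ 0 ∧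
      (sub2 c hc hle x : F0 C) = tt C ^ wind C (sub2 c hc hle x : F0 C) * y ^ q := by
  have hq0 : q ≠ 0 := by rintro rfl; simp at hq
  have hqp : 0 < ‖(q : C)‖ ^ 2 := by positivity
  have hcp : 0 < ‖c‖ := norm_pos_iff.2 hc
  apply Mon.wind_form
  rw [sub2_eq hc hle hh x hx]
  refine (Mon.ratFunc2 hq hc hc1 hr hdiv).mul ?_
  set h' : F2 C := ⟨h, IntermediateField.subset_adjoin _ _ hh⟩ with hh'
  set a : C := evInf C ⟨h, hh⟩ with ha
  have han : ‖a‖ < 1 := (norm_evInf_le _).trans_lt h1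
  have hkey : ‖(sub2 c hc hle h' : F0 C) - algebraMap C (F0 C) a‖ < ‖(q : C)‖ ^ 2 := by
    refine (norm_sub2_sub_evInf hc hle hh).trans_lt ?_
    calc ‖h‖ * ‖c‖⁻¹ ≤ 1 * ‖c‖⁻¹ := by gcongr
      _ < _ := by
        rw [one_mul, inv_lt_iff_one_lt_mul₀ hcp, mul_comm]
        linarith
  have ha1 : ‖1 + a‖ = 1 := by
    have := IsUltrametricDist.norm_add_eq_max_of_norm_ne_norm (x := a) (y := (1 : C))
      (by rw [norm_one]; exact han.ne)
    rw [add_comm, this, norm_one, max_eq_right han.le]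
  have ha0 : (1 + a) ≠ 0 := by
    intro h; rw [h, norm_zero] at ha1; exact zero_ne_one ha1
  have hA0 : algebraMap C (F0 C) (1 + a) ≠ 0 := (_root_.map_ne_zero _).2 ha0
  have e2 : (1 + (sub2 c hc hle h' : F0 C)) = algebraMap C (F0 C) (1 + a) *
      (1 + ((sub2 c hc hle h' : F0 C) - algebraMap C (F0 C) a) *
        (algebraMap C (F0 C) (1 + a))⁻¹) := by
    rw [mul_add, mul_one, mul_comm _ (((sub2 c hc hle h' : F0 C) - algebraMap C (F0 C) a) * _),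
      mul_assoc, inv_mul_cancel₀ hA0, mul_one, map_add, map_one]
    ring
  rw [e2]
  refine (Mon.const hq0 ha0).mul (Mon.small hq ?_)
  rw [add_sub_cancel_left, norm_mul, norm_inv, norm_algebraMap_C, ha1, inv_one, mul_one]
  exact hkey

/-! ## winding numbers -/

lemma wind_zpow {x : F0 C} (hx : x ≠ 0) (k : ℤ) : wind C (x ^ k) = k * wind C x := by
  have hnat : ∀ k : ℕ, wind C (x ^ k) = k * wind C x := by
    intro k
    induction k with
    | zero => simp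
    | succ k ih =>
      rw [pow_succ, wind_mul (pow_ne_zero _ hx) hx, ih]; push_cast; ring
  obtain ⟨k, rfl | rfl⟩ := k.eq_nat_or_neg
  · rw [zpow_natCast]; exact hnat k
  · rw [zpow_neg, zpow_natCast, wind_inv, hnat k]; ring

lemma wind_prod {ι : Type*} (s : Finset ι) (f : ι → F0 C) (h : ∀ i ∈ s, f i ≠ 0) :
    wind C (∏ i ∈ s, f i) = ∑ i ∈ s, wind C (f i) := by
  classical
  induction s using Finset.induction_on with
  | empty => simp
  | insert a s ha ih =>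
    rw [Finset.prod_insert ha, Finset.sum_insert ha,
      wind_mul (h a (Finset.mem_insert_self _ _))
        (Finset.prod_ne_zero_iff.2 fun i hi => h i (Finset.mem_insert_of_mem hi)),
      ih fun i hi => h i (Finset.mem_insert_of_mem hi)]

open Classical in
lemma wind_lin {c : C} (hc : c ≠ 0) (b : C) :
    wind C (algebraMap C (F0 C) c * tt C - algebraMap C (F0 C) b) =
      if ‖b‖ ≤ ‖c‖ then 1 else 0 := by
  have hcA : algebraMap C (F0 C) c ≠ 0 := (_root_.map_ne_zero _).2 hc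
  have e : algebraMap C (F0 C) c * tt C - algebraMap C (F0 C) b =
      algebraMap C (F0 C) c * aeval (tt C) (X - Polynomial.C (b / c)) := by
    rw [map_sub, aeval_X, aeval_C, map_div₀]
    field_simp
  have h0 : aeval (tt C) (X - Polynomial.C (b / c)) ≠ 0 := by
    intro h
    rw [h, mul_zero] at e
    exact lin_ne_zero hc b e
  rw [e, wind_mul hcA h0, wind_const, zero_add, wind_poly (X_sub_C_ne_zero _), roots_X_sub_C]
  have hcp : 0 < ‖c‖ := norm_pos_iff.2 hc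
  have hiff : ‖b / c‖ ≤ 1 ↔ ‖b‖ ≤ ‖c‖ := by rw [norm_div, div_le_one hcp]
  by_cases hb : ‖b‖ ≤ ‖c‖
  · rw [if_pos hb, Multiset.filter_singleton, if_pos (hiff.2 hb)]; simp
  · rw [if_neg hb, Multiset.filter_singleton, if_neg (fun h => hb (hiff.1 h))]; simp

/-- Winding numbers on two circles `|t| = ‖c‖ ≤ ‖c'‖`, if the orders in between are divisible by
`q`. -/
theorem wind_sc_congr {q : ℕ} {c c' : C} (hc : c ≠ 0) (hc' : c' ≠ 0) (hcc : ‖c‖ ≤ ‖c'‖)
    {r : RatFunc C} (hr : r ≠ 0)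
    (hdiv : ∀ b : C, ‖c‖ < ‖b‖ → ‖b‖ ≤ ‖c'‖ → (q : ℤ) ∣ ordC b r) :
    (q : ℤ) ∣ wind C (sc c' hc' r) - wind C (sc c hc r) := by
  classical
  obtain ⟨a, ha, T, -, e⟩ := exists_sc_eq_prod hr
  have haA : algebraMap C (F0 C) a ≠ 0 := (_root_.map_ne_zero _).2 ha
  have key : ∀ (d : C) (hd : d ≠ 0), wind C (sc d hd r) =
      ∑ b ∈ T, ordC b r * (if ‖b‖ ≤ ‖d‖ then 1 else 0) := by
    intro d hd
    have h0 : ∀ b ∈ T, (algebraMap C (F0 C) d * tt C - algebraMap C (F0 C) b) ^ ordC b r ≠ 0 :=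
      fun b _ => zpow_ne_zero _ (lin_ne_zero hd b)
    rw [e d hd, wind_mul haA (Finset.prod_ne_zero_iff.2 h0), wind_const, zero_add,
      wind_prod _ _ h0]
    refine Finset.sum_congr rfl fun b _ => ?_
    rw [wind_zpow (lin_ne_zero hd b), wind_lin hd b]
  rw [key, key, ← Finset.sum_sub_distrib]
  refine Finset.dvd_sum fun b _ => ?_
  rw [← mul_sub]
  by_cases h1 : ‖b‖ ≤ ‖c‖
  · rw [if_pos h1, if_pos (h1.trans hcc), sub_self, mul_zero]; exact dvd_zero _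
  · by_cases h2 : ‖b‖ ≤ ‖c'‖
    · exact (hdiv b (not_le.1 h1) h2).mul_right _
    · rw [if_neg h1, if_neg h2, sub_self, mul_zero]; exact dvd_zero _

lemma wind_sub2 {c : C} (hc : c ≠ 0) (hle : 1 ≤ ‖c‖) {r : RatFunc C} (hr : r ≠ 0) {h : F0 C}
    (hh : h ∈ A2 C) (h1 : ‖h‖ < 1) (x : F2 C)
    (hx : (x : F0 C) = algebraMap (RatFunc C) (F0 C) r * (1 + h)) :
    wind C (sub2 c hc hle x : F0 C) = wind C (sc c hc r) := by
  have hlt : ‖(sub2 c hc hle ⟨h, IntermediateField.subset_adjoin _ _ hh⟩ : F0 C)‖ < 1 :=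
    ((sub2_mem_A2 c hc hle ⟨h, IntermediateField.subset_adjoin _ _ hh⟩ hh).2).trans_lt h1
  have h0 : sc c hc r ≠ 0 := by
    rw [_root_.map_ne_zero]; exact hr
  have h2 : 1 + (sub2 c hc hle ⟨h, IntermediateField.subset_adjoin _ _ hh⟩ : F0 C) ≠ 0 := by
    intro h3
    have h4 : (sub2 c hc hle ⟨h, IntermediateField.subset_adjoin _ _ hh⟩ : F0 C) = -1 := by
      rw [eq_neg_iff_add_eq_zero, add_comm]; exact h3
    rw [h4, norm_neg, norm_one] at hlt
    exact lt_irrefl _ hlt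
  rw [sub2_eq hc hle hh x hx, wind_mul h0 h2, wind_one_add hlt, add_zero]

theorem wind_sub2_congr {q : ℕ} {c c' : C} (hc : c ≠ 0) (hc' : c' ≠ 0) (hle : 1 ≤ ‖c‖)
    (hle' : 1 ≤ ‖c'‖) (hcc : ‖c‖ ≤ ‖c'‖) {r : RatFunc C} (hr : r ≠ 0)
    (hdiv : ∀ b : C, ‖c‖ < ‖b‖ → ‖b‖ ≤ ‖c'‖ → (q : ℤ) ∣ ordC b r) {h : F0 C}
    (hh : h ∈ A2 C) (h1 : ‖h‖ < 1) (x : F2 C)
    (hx : (x : F0 C) = algebraMap (RatFunc C) (F0 C) r * (1 + h)) :
    (q : ℤ) ∣ wind C (sub2 c' hc' hle' x : F0 C) - wind C (sub2 c hc hle x : F0 C) := by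
  rw [wind_sub2 hc' hle' hr hh h1 x hx, wind_sub2 hc hle hr hh h1 x hx]
  exact wind_sc_congr hc hc' hcc hr hdiv

end

end P025H469
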