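import Mathlib

/-!
# P025 G-DISC (T4): approximation in `K ⊗[F] L`

`K` a complete field with a dense subfield (image of) `F`, `L/F` finite, `n ≠ 0` in `K`.
Every unit of `K ⊗[F] L` is an element of `L` times an `n`-th power (of a unit near `1`).
-/

set_option linter.style.haveILetI false

open TensorProduct Filter Topology

namespace P025H469

/-- `w ↦ w ^ n` is open at `1` in a finite dimensional algebra over a complete field. -/
theorem exists_pow_near {K : Type*} [NormedField K] [CompleteSpace K]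
    (hK : ∃ x : K, 1 < ‖x‖) {A : Type*} [CommRing A] [Algebra K A] {ι : Type*} [Fintype ι]
    (e : A ≃ₗ[K] (ι → K)) {n : ℕ} (hn : (n : K) ≠ 0) {δ : ℝ} (hδ : 0 < δ) :
    ∃ ε > 0, ∀ z : A, ‖e z‖ < ε → ∃ w : A, IsUnit w ∧ w ^ n = 1 + z ∧ ‖e (w - 1)‖ < δ := by
  classical
  letI : NontriviallyNormedField K := { ‹NormedField K› with non_trivial := hK }
  haveI : FiniteDimensional K A := Module.Finite.equiv e.symm
  -- a norm on `A`
  let ρ : A →ₐ[K] ((ι → K) →L[K] (ι → K)) :=
    ((Module.End.toContinuousLinearMap (𝕜 := K) (ι → K)).toAlgHom.comp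
      ((e.conjAlgEquiv K).toAlgHom)).comp (Algebra.lmul K A)
  have hρ : Function.Injective ρ := by
    intro a b hab
    have h1 : Algebra.lmul K A a = Algebra.lmul K A b :=
      (e.conjAlgEquiv K).injective
        ((Module.End.toContinuousLinearMap (𝕜 := K) (ι → K)).injective hab)
    have h2 := congrArg (fun f : Module.End K A => f 1) h1
    simpa using h2
  letI iN : NormedCommRing A := NormedCommRing.induced A _ ρ.toRingHom hρ
  letI iA : NormedAlgebra K A := NormedAlgebra.induced K A _ ρ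
  haveI : CompleteSpace A := FiniteDimensional.complete K A
  have hec : Continuous e := e.toLinearMap.continuous_of_finiteDimensional
  have hesc : Continuous e.symm := e.symm.toLinearMap.continuous_of_finiteDimensional
  have hd : HasStrictFDerivAt (𝕜 := K) (fun x : A => x ^ n)
      ((n • (1 : A) ^ (n - 1)) • ContinuousLinearMap.id K A) 1 := hasStrictFDerivAt_pow n
  have hrange : ((n • (1 : A) ^ (n - 1)) • ContinuousLinearMap.id K A).range = ⊤ := by
    rw [LinearMap.range_eq_top]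
    intro y
    refine ⟨algebraMap K A (n : K)⁻¹ * y, ?_⟩
    have h1 : (algebraMap K A (n : K)) * algebraMap K A (n : K)⁻¹ = 1 := by
      rw [← map_mul, mul_inv_cancel₀ hn, map_one]
    have h2 : (n : A) * algebraMap K A (n : K)⁻¹ = 1 := by
      rwa [map_natCast] at h1
    simp only [one_pow, nsmul_eq_mul, mul_one]
    change (n : A) * (algebraMap K A (n : K)⁻¹ * y) = y
    rw [← mul_assoc, h2, one_mul]
  have hmap := hd.map_nhds_eq_of_surj hrange
  have hU : {w : A | IsUnit w ∧ ‖e (w - 1)‖ < δ} ∈ 𝓝 (1 : A) := by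
    apply Filter.inter_mem
    · exact Units.isOpen.mem_nhds isUnit_one
    · have hc : Continuous fun w : A => ‖e (w - 1)‖ :=
        (hec.comp (continuous_id.sub continuous_const)).norm
      refine (isOpen_lt hc continuous_const).mem_nhds ?_
      simpa using hδ
  have hV : (fun x : A => x ^ n) '' {w : A | IsUnit w ∧ ‖e (w - 1)‖ < δ} ∈ 𝓝 ((1 : A) ^ n) := by
    rw [← hmap]
    exact Filter.image_mem_map hU
  rw [one_pow] at hV
  have hg : Continuous fun v : ι → K => 1 + e.symm v := continuous_const.add hesc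
  have hW : (fun v : ι → K => 1 + e.symm v) ⁻¹'
      ((fun x : A => x ^ n) '' {w : A | IsUnit w ∧ ‖e (w - 1)‖ < δ}) ∈ 𝓝 (0 : ι → K) := by
    apply hg.continuousAt.preimage_mem_nhds
    simpa using hV
  obtain ⟨ε, hε, hball⟩ := Metric.mem_nhds_iff.1 hW
  refine ⟨ε, hε, fun z hz => ?_⟩
  have hz' : e z ∈ Metric.ball (0 : ι → K) ε := by
    rwa [mem_ball_zero_iff]
  obtain ⟨w, ⟨hw1, hw2⟩, hw3⟩ := hball hz'
  refine ⟨w, hw1, ?_, hw2⟩
  simpa using hw3

/-- Approximation: every unit of `K ⊗[F] L` is an element of `L` times an `n`-th power. -/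
theorem exists_mul_pow {F K L : Type*} [Field F] [NormedField K] [CompleteSpace K]
    (hK : ∃ x : K, 1 < ‖x‖) [Algebra F K] (hd : DenseRange (algebraMap F K)) [Field L]
    [Algebra F L] [FiniteDimensional F L] {n : ℕ} (hn : (n : K) ≠ 0) (u : (K ⊗[F] L)ˣ) :
    ∃ x : L, x ≠ 0 ∧ ∃ w : (K ⊗[F] L)ˣ,
      (u : K ⊗[F] L) = ((1 : K) ⊗ₜ[F] x) * (w : K ⊗[F] L) ^ n := by
  classical
  letI : NontriviallyNormedField K := { ‹NormedField K› with non_trivial := hK }
  set b := Module.finBasis F L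
  set B := Algebra.TensorProduct.basis K b with hB
  set e := B.equivFun with he
  obtain ⟨ε, hε, H⟩ := exists_pow_near hK e hn one_pos
  -- multiplication by `u⁻¹`
  let T : (Fin (Module.finrank F L) → K) →ₗ[K] (Fin (Module.finrank F L) → K) :=
    e.toLinearMap ∘ₗ (LinearMap.mulLeft K ((u⁻¹ : (K ⊗[F] L)ˣ) : K ⊗[F] L)) ∘ₗ e.symm.toLinearMap
  have hTc : Continuous T := T.continuous_of_finiteDimensional
  have hT0 : Tendsto T (𝓝 0) (𝓝 0) := by
    have := hTc.tendsto 0
    rwa [map_zero] at this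
  obtain ⟨η, hη, hTη⟩ := Metric.tendsto_nhds_nhds.1 hT0 ε hε
  have hx : ∀ i, ∃ x : F, ‖algebraMap F K x - e (u : K ⊗[F] L) i‖ < η := by
    intro i
    obtain ⟨x, hx⟩ := hd.exists_dist_lt (e (u : K ⊗[F] L) i) hη
    refine ⟨x, ?_⟩
    rwa [dist_comm, dist_eq_norm] at hx
  choose x hx using hx
  set X : L := ∑ i, x i • b i with hX
  have hXe : ∀ i, e ((1 : K) ⊗ₜ[F] X) i = algebraMap F K (x i) := by
    intro i
    have h1 : (1 : K) ⊗ₜ[F] X = ∑ j, algebraMap F K (x j) • B j := by
      rw [hX, TensorProduct.tmul_sum]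
      refine Finset.sum_congr rfl fun j _ => ?_
      rw [hB, Algebra.TensorProduct.basis_apply, TensorProduct.tmul_smul, algebraMap_smul]
    have h2 : e (∑ j, algebraMap F K (x j) • B j) = fun j => algebraMap F K (x j) := by
      rw [he, ← B.equivFun_symm_apply, LinearEquiv.apply_symm_apply]
    rw [h1, h2]
  set z : K ⊗[F] L := ((u⁻¹ : (K ⊗[F] L)ˣ) : K ⊗[F] L) * ((1 : K) ⊗ₜ[F] X - u) with hz
  have hez : e z = T (e ((1 : K) ⊗ₜ[F] X - u)) := by
    simp [T, hz]
  have hzn : ‖e z‖ < ε := by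
    rw [hez, ← dist_zero_right]
    apply hTη
    rw [dist_zero_right, pi_norm_lt_iff hη]
    intro i
    rw [map_sub, Pi.sub_apply, hXe]
    exact hx i
  obtain ⟨w, hw, hwn, -⟩ := H z hzn
  have hu : ((1 : K) ⊗ₜ[F] X : K ⊗[F] L) = u * w ^ n := by
    rw [hwn, hz, mul_add, mul_one, Units.mul_inv_cancel_left]
    ring
  refine ⟨X, ?_, hw.unit⁻¹, ?_⟩
  · intro h0
    rw [h0, TensorProduct.tmul_zero] at hu
    have : IsUnit ((u : K ⊗[F] L) * w ^ n) := u.isUnit.mul (hw.pow n)
    rw [← hu, isUnit_zero_iff] at this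
    exact zero_ne_one this
  · have h1 : ((hw.unit⁻¹ : (K ⊗[F] L)ˣ) : K ⊗[F] L) ^ n * w ^ n = 1 := by
      rw [← mul_pow, IsUnit.val_inv_mul, one_pow]
    rw [hu, mul_assoc, mul_comm (w ^ n), h1, mul_one]

end P025H469
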