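import Vale.Agent.P025.R2.H544.Patch
import Vale.Agent.P025.R2.H469.Dense

/-!
# P025 G-DISC (T4): globalization modulo `n`-th powers

Every unit of `F1 ⊗[F] L` (or `F2 ⊗[F] L`) is an element of `L` times an `n`-th power.
-/

open TensorProduct

namespace P025H469

open P025H544

variable {F F1 F2 F0 : Type*} [Field F] [Field F1] [Field F2] [NormedField F0]
  [Algebra F F1] [Algebra F F2] [Algebra F F0] [Algebra F1 F0] [Algebra F2 F0]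
  [IsScalarTower F F1 F0] [IsScalarTower F F2 F0] {L : Type*} [Field L] [Algebra F L]

/-- a nonzero element of `L` as a unit of `A ⊗[F] L`. -/
noncomputable def unitOf (F A : Type*) {L : Type*} [Field F] [Field A] [Field L] [Algebra F A]
    [Algebra F L] (x : L) (hx : x ≠ 0) : (A ⊗[F] L)ˣ :=
  Units.map (Algebra.TensorProduct.includeRight : L →ₐ[F] A ⊗[F] L).toRingHom.toMonoidHom
    (Units.mk0 x hx)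

@[simp] theorem unitOf_val (F A : Type*) {L : Type*} [Field F] [Field A] [Field L] [Algebra F A]
    [Algebra F L] (x : L) (hx : x ≠ 0) :
    ((unitOf F A x hx : (A ⊗[F] L)ˣ) : A ⊗[F] L) = (1 : A) ⊗ₜ[F] x := rfl

/-- Globalization modulo `n`-th powers, `F1`-side. -/
theorem exists_glob1 (hP : Patch F F1 F2 F0) [CompleteSpace F0] (hK : ∃ x : F0, 1 < ‖x‖)
    (hd : DenseRange (algebraMap F F0)) [FiniteDimensional F L] {n : ℕ} (hn : (n : F0) ≠ 0)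
    (y : (F1 ⊗[F] L)ˣ) :
    ∃ x : L, x ≠ 0 ∧ ∃ s : (F1 ⊗[F] L)ˣ,
      (y : F1 ⊗[F] L) = ((1 : F1) ⊗ₜ[F] x) * (s : F1 ⊗[F] L) ^ n := by
  set Y : (F0 ⊗[F] L)ˣ := Units.map (bc F F1 F0 L).toRingHom.toMonoidHom y with hY
  have hYv : (Y : F0 ⊗[F] L) = bc F F1 F0 L y := rfl
  obtain ⟨x, hx, w, hw⟩ := exists_mul_pow hK hd hn Y
  have hxY : bc F F1 F0 L ((unitOf F F1 x hx)⁻¹ * y : (F1 ⊗[F] L)ˣ) =
      bc F F2 F0 L (1 : (F2 ⊗[F] L)ˣ) * (w : F0 ⊗[F] L) ^ n := by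
    have h1 : bc F F1 F0 L (((unitOf F F1 x hx)⁻¹ : (F1 ⊗[F] L)ˣ) : F1 ⊗[F] L) *
        ((1 : F0) ⊗ₜ[F] x) = 1 := by
      have : ((1 : F0) ⊗ₜ[F] x) = bc F F1 F0 L ((unitOf F F1 x hx : (F1 ⊗[F] L)ˣ) : F1 ⊗[F] L) := by
        rw [unitOf_val, bc_tmul, map_one]
      rw [this, ← map_mul, Units.inv_mul, map_one]
    rw [Units.val_mul, map_mul, ← hYv, hw, ← mul_assoc, h1, one_mul, Units.val_one, map_one,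
      one_mul]
  obtain ⟨z, hz, ⟨s, hs⟩, -⟩ := hP.kummer_glue n ((unitOf F F1 x hx)⁻¹ * y) 1 w hxY
  refine ⟨x * z, mul_ne_zero hx hz, s⁻¹, ?_⟩
  have e1 : ((1 : F1) ⊗ₜ[F] (x * z)) = ((1 : F1) ⊗ₜ[F] x) * ((1 : F1) ⊗ₜ[F] z) := by
    rw [Algebra.TensorProduct.tmul_mul_tmul, one_mul]
  have e2 : ((1 : F1) ⊗ₜ[F] x) * (((unitOf F F1 x hx)⁻¹ : (F1 ⊗[F] L)ˣ) : F1 ⊗[F] L) = 1 := by
    rw [← unitOf_val F F1 x hx, Units.mul_inv]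
  have e3 : (s : F1 ⊗[F] L) ^ n * ((s⁻¹ : (F1 ⊗[F] L)ˣ) : F1 ⊗[F] L) ^ n = 1 := by
    rw [← mul_pow, Units.mul_inv, one_pow]
  calc (y : F1 ⊗[F] L)
      = (((1 : F1) ⊗ₜ[F] x) * (((unitOf F F1 x hx)⁻¹ : (F1 ⊗[F] L)ˣ) : F1 ⊗[F] L)) * y *
          ((s : F1 ⊗[F] L) ^ n * ((s⁻¹ : (F1 ⊗[F] L)ˣ) : F1 ⊗[F] L) ^ n) := by
        rw [e2, e3, one_mul, mul_one]
    _ = (((1 : F1) ⊗ₜ[F] x) * ((((unitOf F F1 x hx)⁻¹ * y : (F1 ⊗[F] L)ˣ) : F1 ⊗[F] L) *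
          (s : F1 ⊗[F] L) ^ n)) * ((s⁻¹ : (F1 ⊗[F] L)ˣ) : F1 ⊗[F] L) ^ n := by
        rw [Units.val_mul]; ring
    _ = _ := by rw [← hs, e1]

/-- Globalization modulo `n`-th powers, `F2`-side. -/
theorem exists_glob2 (hP : Patch F F1 F2 F0) [CompleteSpace F0] (hK : ∃ x : F0, 1 < ‖x‖)
    (hd : DenseRange (algebraMap F F0)) [FiniteDimensional F L] {n : ℕ} (hn : (n : F0) ≠ 0)
    (y : (F2 ⊗[F] L)ˣ) :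
    ∃ x : L, x ≠ 0 ∧ ∃ s : (F2 ⊗[F] L)ˣ,
      (y : F2 ⊗[F] L) = ((1 : F2) ⊗ₜ[F] x) * (s : F2 ⊗[F] L) ^ n := by
  set Y : (F0 ⊗[F] L)ˣ := Units.map (bc F F2 F0 L).toRingHom.toMonoidHom y with hY
  have hYv : (Y : F0 ⊗[F] L) = bc F F2 F0 L y := rfl
  obtain ⟨x, hx, w, hw⟩ := exists_mul_pow hK hd hn Y
  have hxY : bc F F1 F0 L (1 : (F1 ⊗[F] L)ˣ) =
      bc F F2 F0 L ((unitOf F F2 x hx)⁻¹ * y : (F2 ⊗[F] L)ˣ) *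
        ((w⁻¹ : (F0 ⊗[F] L)ˣ) : F0 ⊗[F] L) ^ n := by
    have h1 : bc F F2 F0 L (((unitOf F F2 x hx)⁻¹ : (F2 ⊗[F] L)ˣ) : F2 ⊗[F] L) *
        ((1 : F0) ⊗ₜ[F] x) = 1 := by
      have : ((1 : F0) ⊗ₜ[F] x) = bc F F2 F0 L ((unitOf F F2 x hx : (F2 ⊗[F] L)ˣ) : F2 ⊗[F] L) := by
        rw [unitOf_val, bc_tmul, map_one]
      rw [this, ← map_mul, Units.inv_mul, map_one]
    rw [Units.val_mul, map_mul, ← hYv, hw, ← mul_assoc, h1, one_mul, Units.val_one, map_one,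
      ← mul_pow, Units.mul_inv, one_pow]
  obtain ⟨z, hz, -, ⟨s, hs⟩⟩ := hP.kummer_glue n 1 ((unitOf F F2 x hx)⁻¹ * y) w⁻¹ hxY
  refine ⟨x * z, mul_ne_zero hx hz, s⁻¹, ?_⟩
  have e1 : ((1 : F2) ⊗ₜ[F] (x * z)) = ((1 : F2) ⊗ₜ[F] x) * ((1 : F2) ⊗ₜ[F] z) := by
    rw [Algebra.TensorProduct.tmul_mul_tmul, one_mul]
  have e2 : ((1 : F2) ⊗ₜ[F] x) * (((unitOf F F2 x hx)⁻¹ : (F2 ⊗[F] L)ˣ) : F2 ⊗[F] L) = 1 := by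
    rw [← unitOf_val F F2 x hx, Units.mul_inv]
  have e3 : (s : F2 ⊗[F] L) ^ n * ((s⁻¹ : (F2 ⊗[F] L)ˣ) : F2 ⊗[F] L) ^ n = 1 := by
    rw [← mul_pow, Units.mul_inv, one_pow]
  calc (y : F2 ⊗[F] L)
      = (((1 : F2) ⊗ₜ[F] x) * (((unitOf F F2 x hx)⁻¹ : (F2 ⊗[F] L)ˣ) : F2 ⊗[F] L)) * y *
          ((s : F2 ⊗[F] L) ^ n * ((s⁻¹ : (F2 ⊗[F] L)ˣ) : F2 ⊗[F] L) ^ n) := by
        rw [e2, e3, one_mul, mul_one]
    _ = (((1 : F2) ⊗ₜ[F] x) * ((((unitOf F F2 x hx)⁻¹ * y : (F2 ⊗[F] L)ˣ) : F2 ⊗[F] L) *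
          (s : F2 ⊗[F] L) ^ n)) * ((s⁻¹ : (F2 ⊗[F] L)ˣ) : F2 ⊗[F] L) ^ n := by
        rw [Units.val_mul]; ring
    _ = _ := by rw [← hs, e1]

end P025H469
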