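import Vale.Agent.P025.R2.H373.Gauss
import Vale.Agent.P025.R2.H469.Glob

/-!
# P025 G-DISC (T4): globalization modulo `n`-th powers, for `F = C(t)`
-/

set_option linter.unusedSectionVars false

open TensorProduct

universe u

namespace P025H469

open P025H373 P025H544

variable {C : Type u} [NontriviallyNormedField C] [IsUltrametricDist C] [CompleteSpace C]
  [IsAlgClosed C]

theorem exists_one_lt_norm_F0 (C : Type u) [NontriviallyNormedField C] [IsUltrametricDist C] :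
    ∃ x : F0 C, 1 < ‖x‖ := by
  obtain ⟨c, hc⟩ := NormedField.exists_one_lt_norm C
  exact ⟨algebraMap C (F0 C) c, by rwa [norm_algebraMap_C]⟩

theorem natCast_F0_ne_zero {n : ℕ} (hn : (n : C) ≠ 0) : (n : F0 C) ≠ 0 := by
  intro h
  apply hn
  rw [← norm_eq_zero, ← norm_algebraMap_C, map_natCast, h, norm_zero]

/-- every unit of `F0 ⊗ L` is an element of `L` times an `n`-th power. -/
theorem exists_mul_pow_F0 {L : Type*} [Field L] [Algebra (RatFunc C) L]
    [FiniteDimensional (RatFunc C) L] {n : ℕ} (hn : (n : C) ≠ 0)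
    (y : (F0 C ⊗[RatFunc C] L)ˣ) :
    ∃ x : L, x ≠ 0 ∧ ∃ s : (F0 C ⊗[RatFunc C] L)ˣ,
      (y : F0 C ⊗[RatFunc C] L) = ((1 : F0 C) ⊗ₜ[RatFunc C] x) *
        (s : F0 C ⊗[RatFunc C] L) ^ n :=
  exists_mul_pow (exists_one_lt_norm_F0 C) denseRange_algebraMap (natCast_F0_ne_zero hn) y

variable (hP : Patch (RatFunc C) (F1 C) (F2 C) (F0 C))
include hP

/-- every unit of `F1 ⊗ L` is an element of `L` times an `n`-th power. -/
theorem exists_glob_F1 {L : Type*} [Field L] [Algebra (RatFunc C) L]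
    [FiniteDimensional (RatFunc C) L] {n : ℕ} (hn : (n : C) ≠ 0)
    (y : (F1 C ⊗[RatFunc C] L)ˣ) :
    ∃ x : L, x ≠ 0 ∧ ∃ s : (F1 C ⊗[RatFunc C] L)ˣ,
      (y : F1 C ⊗[RatFunc C] L) = ((1 : F1 C) ⊗ₜ[RatFunc C] x) *
        (s : F1 C ⊗[RatFunc C] L) ^ n :=
  exists_glob1 hP (exists_one_lt_norm_F0 C) denseRange_algebraMap (natCast_F0_ne_zero hn) y

/-- every unit of `F2 ⊗ L` is an element of `L` times an `n`-th power. -/
theorem exists_glob_F2 {L : Type*} [Field L] [Algebra (RatFunc C) L]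
    [FiniteDimensional (RatFunc C) L] {n : ℕ} (hn : (n : C) ≠ 0)
    (y : (F2 C ⊗[RatFunc C] L)ˣ) :
    ∃ x : L, x ≠ 0 ∧ ∃ s : (F2 C ⊗[RatFunc C] L)ˣ,
      (y : F2 C ⊗[RatFunc C] L) = ((1 : F2 C) ⊗ₜ[RatFunc C] x) *
        (s : F2 C ⊗[RatFunc C] L) ^ n :=
  exists_glob2 hP (exists_one_lt_norm_F0 C) denseRange_algebraMap (natCast_F0_ne_zero hn) y

end P025H469
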