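import Vale.Agent.P025.R2.H469.LongCharts

/-!
# P025 G-DISC: (5.2), packaged (LA)
-/

set_option linter.unusedSectionVars false

open Polynomial TensorProduct Vale.Agent.P019P P025H373 P025H544 P025H628 P025H210 P025H613

universe u v

namespace P025H469

noncomputable section

variable {C : Type u} [NontriviallyNormedField C] [IsUltrametricDist C] [CompleteSpace C]
  [IsAlgClosed C] [CharZero C]
  {K : Type v} [Field K] [Algebra C K] [Algebra (RatFunc C) K] [IsScalarTower C (RatFunc C) K]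
  [FiniteDimensional (RatFunc C) K] [CFF C K]

/-- (5.2) for elements of `K`. -/
theorem long_K {q : ℕ} (hq : (q : C) ≠ 0) (D : Charts C K) (c0 c c1 : Cˣ)
    (h0 : D.r0 ≤ ‖(c0 : C)‖) (h0c : ‖(c0 : C)‖ ≤ ‖(c : C)‖) (hcc : ‖(c : C)‖ ≤ ‖(c1 : C)‖)
    (h1 : ∀ P : Pole C K, ‖(c0 : C)‖ < ‖(c : C)‖ * (‖(q : C)‖ ^ 2) ^ P.N)
    (h2 : ∀ P : Pole C K, ‖(c : C)‖ ≤ ‖(c1 : C)‖ * (‖(q : C)‖ ^ 2) ^ P.N)
    {g : K} (hg : g ≠ 0)
    (hord : ∀ (P : Plk C K) (a : C), 0 < ord P (TT C K - algebraMap C K a) →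
      ‖(c0 : C)‖ < ‖a‖ → ‖a‖ ≤ ‖(c1 : C)‖ → (q : ℤ) ∣ ord P g)
    (W : F0r C c1 → ℤ) (hWdef : ∀ x : F0r C c1, W x = wind C (show F0 C from x))
    (hW : ∀ w : Pt (RatFunc C) (F0r C c1) K, (q : ℤ) ∣ wd W w ((1 : F0r C c1) ⊗ₜ[RatFunc C] g)) :
    ∃ z : F0r C c ⊗[RatFunc C] K, (1 : F0r C c) ⊗ₜ[RatFunc C] g = z ^ q := by
  classical
  have hWe : W = (fun x : F0r C c1 => wind C (show F0 C from x)) := funext hWdef
  subst hWe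
  have hu : IsUnit ((1 : F1r C c1) ⊗ₜ[RatFunc C] g) :=
    (IsUnit.mk0 g hg).map (Algebra.TensorProduct.includeRight : K →ₐ[RatFunc C]
      F1r C c1 ⊗[RatFunc C] K)
  -- windings of constants: no assumption on `v` is needed for `y = 1 ⊗ g`
  have hq0 : q ≠ 0 := by rintro rfl; simp at hq
  have hqp : 0 < ‖(q : C)‖ ^ 2 := by positivity
  have hroot : ∀ (d : Cˣ) (P : Pole C K), ∃ γ : Cˣ, γ ^ P.N = d := by
    intro d P
    obtain ⟨z, hz⟩ := IsAlgClosed.exists_pow_nat_eq (d : C) P.N_pos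
    have hz0 : z ≠ 0 := by
      rintro rfl
      rw [zero_pow P.N_pos.ne'] at hz
      exact d.ne_zero hz.symm
    exact ⟨Units.mk0 z hz0, Units.ext hz⟩
  choose γ0 hγ0 using hroot c0
  choose γ hγ using hroot c
  choose γ1 hγ1 using hroot c1
  have hc0p : 0 < ‖(c0 : C)‖ := norm_pos_iff.2 c0.ne_zero
  have hrc : D.r0 ≤ ‖(c : C)‖ := h0.trans h0c
  have hrc1 : D.r0 ≤ ‖(c1 : C)‖ := hrc.trans hcc
  have n0 : ∀ P, ‖(γ0 P : C)‖ ^ P.N = ‖(c0 : C)‖ := fun P => by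
    rw [← norm_pow, ← Units.val_pow_eq_pow_val, hγ0]
  have n1 : ∀ P, ‖(γ P : C)‖ ^ P.N = ‖(c : C)‖ := fun P => by
    rw [← norm_pow, ← Units.val_pow_eq_pow_val, hγ]
  have n2 : ∀ P, ‖(γ1 P : C)‖ ^ P.N = ‖(c1 : C)‖ := fun P => by
    rw [← norm_pow, ← Units.val_pow_eq_pow_val, hγ1]
  have nd : ∀ (d : Pole C K → Cˣ) P, ‖(((γ0 P)⁻¹ * d P : Cˣ) : C)‖ =
      ‖(d P : C)‖ / ‖(γ0 P : C)‖ := fun d P => by
    rw [Units.val_mul, norm_mul, Units.val_inv_eq_inv_val, norm_inv, div_eq_inv_mul]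
  have p0 : ∀ P, 0 < ‖(γ0 P : C)‖ := fun P => norm_pos_iff.2 (γ0 P).ne_zero
  have hle : ∀ P, 1 ≤ ‖(((γ0 P)⁻¹ * γ P : Cˣ) : C)‖ := fun P => by
    rw [nd γ P, one_le_div (p0 P)]
    refine le_of_pow_le_pow_left₀ P.N_pos.ne' (norm_nonneg _) ?_
    rw [n0, n1]; exact h0c
  have hle1 : ∀ P, 1 ≤ ‖(((γ0 P)⁻¹ * γ1 P : Cˣ) : C)‖ := fun P => by
    rw [nd γ1 P, one_le_div (p0 P)]
    refine le_of_pow_le_pow_left₀ P.N_pos.ne' (norm_nonneg _) ?_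
    rw [n0, n2]; exact h0c.trans hcc
  have hψ : ∀ (d : Pole C K → Cˣ) (P : Pole C K)
      (hd : 1 ≤ ‖(((γ0 P)⁻¹ * d P : Cˣ) : C)‖) (x : K),
      (D.ψ P (d P) x : F0 C) = sub2 (((γ0 P)⁻¹ * d P : Cˣ) : C) ((γ0 P)⁻¹ * d P).ne_zero hd
        (D.ψ P (γ0 P) x) := by
    intro d P hd x
    have h3 := D.scale P (γ0 P) ((γ0 P)⁻¹ * d P) (by rw [n0]; exact h0) hd x
    rw [← h3, mul_inv_cancel_left]
  have hgP : ∀ P, D.ψ P (γ0 P) g ≠ 0 := fun P => (_root_.map_ne_zero _).2 hg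
  have hpow : ∀ P : Pole C K, ∃ w : F0 C, w ≠ 0 ∧ (D.ψ P (γ P) g : F0 C) = w ^ q := by
    intro P
    rw [hψ γ P (hle P)]
    refine divAnn_pow hq (hgP P) ((γ0 P)⁻¹ * γ P) ((γ0 P)⁻¹ * γ1 P) ?_ (hle P) (hle1 P) ?_ ?_ ?_
    · rw [nd γ P, div_mul_eq_mul_div, one_lt_div (p0 P)]
      refine lt_of_pow_lt_pow_left₀ P.N (by positivity) ?_
      rw [mul_pow, n0, n1]
      exact h1 P
    · rw [nd γ P, nd γ1 P, div_mul_eq_mul_div, div_le_div_iff_of_pos_right (p0 P)]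
      refine le_of_pow_le_pow_left₀ P.N_pos.ne' (by positivity) ?_
      rw [mul_pow, n1, n2]
      exact h2 P
    · have hT : D.ψ P (γ0 P) (TT C K) = algebraMap (RatFunc C) (F2 C)
          (RatFunc.C (c0 : C) * RatFunc.X ^ P.N) := by
        have e1 : ((γ0 P : C)) ^ P.N = (c0 : C) := by rw [← Units.val_pow_eq_pow_val, hγ0]
        rw [D.map_T P (γ0 P) (by rw [n0]; exact h0), e1, map_mul, map_pow]
        rfl
      refine divAnn_of_ord (D.ψ P (γ0 P)) P.N_pos c0.ne_zero hT (R := ‖(c1 : C)‖) ?_ hg hord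
      rw [nd γ1 P, div_pow, n0, n2, mul_div_cancel₀ _ hc0p.ne']
    · rw [← hψ γ1 P (hle1 P), ← ch0_inc D P (γ1 P) c1 (hγ1 P) hrc1 g]
      have hu0 : IsUnit ((1 : F0r C c1) ⊗ₜ[RatFunc C] g) :=
        (IsUnit.mk0 g hg).map (Algebra.TensorProduct.includeRight : K →ₐ[RatFunc C]
          F0r C c1 ⊗[RatFunc C] K)
      rw [← wd_wP D P (γ1 P) c1 (hγ1 P) hrc1 _ hu0]
      exact hW _
  choose w hw0 hw using hpow
  obtain ⟨z, hz⟩ := (D.bij0 c hrc γ hγ).2 w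
  refine ⟨z, (D.bij0 c hrc γ hγ).1 ?_⟩
  funext P
  have hzP : D.ch0 P (γ P) c (hγ P) hrc z = w P := congrFun hz P
  change D.ch0 P (γ P) c (hγ P) hrc (1 ⊗ₜ g) = D.ch0 P (γ P) c (hγ P) hrc (z ^ q)
  rw [ch0_inc, map_pow, hzP, hw]

variable (C K)

/-- **(LA)** Uniform constants for the long annuli of `T` in `K`. -/
theorem exists_LA : ∃ (r0 : ℝ) (Nm : ℕ), 0 < r0 ∧
    (∀ c : Cˣ, r0 ≤ ‖(c : C)‖ → IsField (F1r C c ⊗[RatFunc C] K)) ∧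
    ∀ q : ℕ, q ≠ 0 → ∀ c c1 : Cˣ, r0 < ‖(c : C)‖ * ‖(q : C)‖ ^ Nm →
      ‖(c : C)‖ ≤ ‖(c1 : C)‖ * ‖(q : C)‖ ^ Nm →
      ∀ (W : F0r C c1 → ℤ), (∀ x : F0r C c1, W x = wind C (show F0 C from x)) →
      ∀ g : K, g ≠ 0 →
      (∀ (P : Plk C K) (a : C), 0 < ord P (TT C K - algebraMap C K a) → ‖a‖ ≤ ‖(c1 : C)‖ →
        (q : ℤ) ∣ ord P g) →
      (∀ w : Pt (RatFunc C) (F0r C c1) K, (q : ℤ) ∣ wd W w ((1 : F0r C c1) ⊗ₜ[RatFunc C] g)) →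
      ∃ z : F0r C c ⊗[RatFunc C] K, (1 : F0r C c) ⊗ₜ[RatFunc C] g = z ^ q := by
  classical
  obtain ⟨D⟩ := exists_charts C K
  obtain ⟨c0, hc0⟩ : ∃ c0 : Cˣ, D.r0 ≤ ‖(c0 : C)‖ := by
    obtain ⟨x, hx⟩ := NormedField.exists_lt_norm C D.r0
    have hx0 : x ≠ 0 := by
      rintro rfl
      rw [norm_zero] at hx
      exact absurd hx (not_lt.2 D.r0_pos.le)
    exact ⟨Units.mk0 x hx0, hx.le⟩
  obtain ⟨M, hM⟩ : ∃ M : ℕ, ∀ P : Pole C K, P.N ≤ M := by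
    obtain ⟨M, hM⟩ := (Set.finite_range (fun P : Pole C K => P.N)).bddAbove
    exact ⟨M, fun P => hM ⟨P, rfl⟩⟩
  refine ⟨‖(c0 : C)‖, 2 * M, norm_pos_iff.2 c0.ne_zero,
    fun c hc => D.isField c (hc0.trans hc), ?_⟩
  intro q hq c c1 h1 h2 W hWdef g hg hord hW
  have hqC : (q : C) ≠ 0 := Nat.cast_ne_zero.2 hq
  have hq1 : ‖(q : C)‖ ≤ 1 := norm_natCast_le_one' q
  have hqM : ∀ P : Pole C K, ‖(q : C)‖ ^ (2 * M) ≤ (‖(q : C)‖ ^ 2) ^ P.N := fun P => by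
    rw [← pow_mul]
    exact pow_le_pow_of_le_one (norm_nonneg _) hq1 (Nat.mul_le_mul_left 2 (hM P))
  have hqM1 : ‖(q : C)‖ ^ (2 * M) ≤ 1 := pow_le_one₀ (norm_nonneg _) hq1
  have h3 : ‖(c0 : C)‖ ≤ ‖(c : C)‖ :=
    h1.le.trans (mul_le_of_le_one_right (norm_nonneg _) hqM1)
  have h4 : ‖(c : C)‖ ≤ ‖(c1 : C)‖ := h2.trans (mul_le_of_le_one_right (norm_nonneg _) hqM1)
  refine long_K hqC D c0 c c1 hc0 h3 h4 (fun P => h1.trans_le ?_) (fun P => h2.trans ?_) hg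
    (fun P a ha _ ha1 => hord P a ha ha1) W hWdef hW
  · exact mul_le_mul_of_nonneg_left (hqM P) (norm_nonneg _)
  · exact mul_le_mul_of_nonneg_left (hqM P) (norm_nonneg _)

end

end P025H469
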