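import Vale.Agent.P025.R2.H628.Rad
import Vale.Agent.P025.R2.H469.Annulus2
import Vale.Agent.P025.R2.H469.Glob

/-!
# P025 G-DISC, (5.2): long annuli

`K` a finite extension of `C(T)`; three radii `‖c0‖ ≤ ‖c‖ ≤ ‖c1‖` with long annuli in between.
`psi i : K → F2 C` are the charts of the discs of radius `‖c0‖` around the poles of `T`.
-/

set_option linter.unusedSectionVars false

open TensorProduct

universe u

namespace P025H469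

open P025H373 P025H544 P025H628

noncomputable section

variable {C : Type u} [NontriviallyNormedField C] [IsUltrametricDist C] [CompleteSpace C]
  [IsAlgClosed C]

/-- `q` divides the order of `x` (`= r (1 + h)`) at all points `1 < ‖b‖ ≤ ρ` of the chart. -/
def DivAnn (q : ℕ) (ρ : ℝ) (x : F0 C) : Prop :=
  ∀ (r : RatFunc C) (h : F0 C), r ≠ 0 → h ∈ A2 C → ‖h‖ < 1 →
    x = algebraMap (RatFunc C) (F0 C) r * (1 + h) →
    ∀ b : C, 1 < ‖b‖ → ‖b‖ ≤ ρ → (q : ℤ) ∣ ordC b r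

/-- On the circle `|t| = ‖γ‖` an element of `F2` with `DivAnn` up to `ρ ≥ ‖γ‖ ‖q‖⁻²` is a monomial
times a `q`-th power; the exponent is the winding number on that circle. -/
theorem divAnn_sub2 {q : ℕ} (hq : (q : C) ≠ 0) {x : F2 C} (hx : x ≠ 0) (γ : Cˣ)
    (h1 : 1 < ‖(γ : C)‖ * ‖(q : C)‖ ^ 2) (hle : 1 ≤ ‖(γ : C)‖) {ρ : ℝ}
    (hρ : ‖(γ : C)‖ ≤ ρ * ‖(q : C)‖ ^ 2) (hdiv : DivAnn q ρ (x : F0 C)) :
    ∃ y : F0 C, y ≠ 0 ∧ (sub2 (γ : C) γ.ne_zero hle x : F0 C) =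
      tt C ^ wind C (sub2 (γ : C) γ.ne_zero hle x : F0 C) * y ^ q := by
  have hx0 : (x : F0 C) ≠ 0 := fun h => hx (Subtype.ext h)
  obtain ⟨r, hr, h, hh, hh1, hxe⟩ := (mem_F2_iff hx0).1 x.2
  have hqp : 0 < ‖(q : C)‖ ^ 2 := by positivity
  refine long_annulus2 hq (γ : C) γ.ne_zero h1 hle r hr ?_ hh hh1 x hxe
  intro b hb hb2
  refine hdiv r h hr hh hh1 hxe b hb ?_
  exact le_of_mul_le_mul_right (hb2.trans hρ) hqp

/-- winding numbers on two circles. -/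
theorem divAnn_wind {q : ℕ} {x : F2 C} (hx : x ≠ 0) (γ γ' : Cˣ)
    (hle : 1 ≤ ‖(γ : C)‖) (hle' : 1 ≤ ‖(γ' : C)‖) (hcc : ‖(γ : C)‖ ≤ ‖(γ' : C)‖) {ρ : ℝ}
    (hρ : ‖(γ' : C)‖ ≤ ρ) (hdiv : DivAnn q ρ (x : F0 C)) :
    (q : ℤ) ∣ wind C (sub2 (γ' : C) γ'.ne_zero hle' x : F0 C) -
      wind C (sub2 (γ : C) γ.ne_zero hle x : F0 C) := by
  have hx0 : (x : F0 C) ≠ 0 := fun h => hx (Subtype.ext h)
  obtain ⟨r, hr, h, hh, hh1, hxe⟩ := (mem_F2_iff hx0).1 x.2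
  exact wind_sub2_congr γ.ne_zero γ'.ne_zero hle hle' hcc hr
    (fun b hb hb2 => hdiv r h hr hh hh1 hxe b (hle.trans_lt hb) (hb2.trans hρ)) hh hh1 x hxe

/-- `q ∣ wind` and `DivAnn` imply: a `q`-th power on the circle. -/
theorem divAnn_pow {q : ℕ} (hq : (q : C) ≠ 0) {x : F2 C} (hx : x ≠ 0) (γ γ' : Cˣ)
    (h1 : 1 < ‖(γ : C)‖ * ‖(q : C)‖ ^ 2) (hle : 1 ≤ ‖(γ : C)‖) (hle' : 1 ≤ ‖(γ' : C)‖)
    (hρ : ‖(γ : C)‖ ≤ ‖(γ' : C)‖ * ‖(q : C)‖ ^ 2) (hdiv : DivAnn q ‖(γ' : C)‖ (x : F0 C))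
    (hw : (q : ℤ) ∣ wind C (sub2 (γ' : C) γ'.ne_zero hle' x : F0 C)) :
    ∃ y : F0 C, y ≠ 0 ∧ (sub2 (γ : C) γ.ne_zero hle x : F0 C) = y ^ q := by
  have hq2 : ‖(q : C)‖ ^ 2 ≤ 1 := pow_le_one₀ (norm_nonneg _) (norm_natCast_le_one' q)
  have hcc : ‖(γ : C)‖ ≤ ‖(γ' : C)‖ :=
    hρ.trans (mul_le_of_le_one_right (norm_nonneg _) hq2)
  obtain ⟨y, hy, e⟩ := divAnn_sub2 hq hx γ h1 hle hρ hdiv
  have h2 := divAnn_wind hx γ γ' hle hle' hcc le_rfl hdiv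
  have h3 : (q : ℤ) ∣ wind C (sub2 (γ : C) γ.ne_zero hle x : F0 C) := by
    have := dvd_sub hw h2
    simpa using this
  obtain ⟨m, hm⟩ := h3
  refine ⟨tt C ^ m * y, mul_ne_zero (zpow_ne_zero _ tt_ne_zero) hy, ?_⟩
  rw [e, hm, mul_pow, ← zpow_natCast (tt C ^ m) q, ← zpow_mul, mul_comm m]

section Main

variable {K : Type*} [Field K] [Algebra (RatFunc C) K] [FiniteDimensional (RatFunc C) K]

/-- the restriction `F1^(c1) ⊗ K → F0^(c) ⊗ K`. -/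
def resE (c c1 : Cˣ) (h : ‖(c : C)‖ ≤ ‖(c1 : C)‖) (K : Type*) [Field K]
    [Algebra (RatFunc C) K] :
    F1r C c1 ⊗[RatFunc C] K →ₐ[RatFunc C] F0r C c ⊗[RatFunc C] K :=
  (bc (RatFunc C) (F1r C c) (F0r C c) K).comp
    (Algebra.TensorProduct.map (res1 c c1 h) (AlgHom.id (RatFunc C) K))

@[simp] theorem resE_tmul (c c1 : Cˣ) (h : ‖(c : C)‖ ≤ ‖(c1 : C)‖) (x : K) :
    resE c c1 h K (1 ⊗ₜ[RatFunc C] x) = 1 ⊗ₜ[RatFunc C] x := by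
  simp [resE]

/-- **(5.2)**, abstract charts: `psi i : K → F2 C` the charts at radius `‖c0‖`, `γ i`, `γ1 i` the
`N i`-th roots of `c / c0`, `c1 / c0`, `Φ`, `Φ1` the identifications of `F0 ⊗ K` with `∏ F0` at the
radii `‖c‖`, `‖c1‖`. -/
theorem long_main {q : ℕ} (hq : (q : C) ≠ 0) {ι : Type*} (c c1 : Cˣ)
    (hcc : ‖(c : C)‖ ≤ ‖(c1 : C)‖) (psi : ι → K →+* F2 C) (γ γ1 : ι → Cˣ)
    (h1 : ∀ i, 1 < ‖(γ i : C)‖ * ‖(q : C)‖ ^ 2) (hle : ∀ i, 1 ≤ ‖(γ i : C)‖)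
    (hle1 : ∀ i, 1 ≤ ‖(γ1 i : C)‖)
    (hρ : ∀ i, ‖(γ i : C)‖ ≤ ‖(γ1 i : C)‖ * ‖(q : C)‖ ^ 2)
    (Φ : F0r C c ⊗[RatFunc C] K →+* (ι → F0 C)) (hΦ : Function.Bijective Φ)
    (hΦx : ∀ x i, Φ (1 ⊗ₜ[RatFunc C] x) i = sub2 (γ i : C) (γ i).ne_zero (hle i) (psi i x))
    (Φ1 : F0r C c1 ⊗[RatFunc C] K →+* (ι → F0 C))
    (hΦ1x : ∀ x i, Φ1 (1 ⊗ₜ[RatFunc C] x) i =
      sub2 (γ1 i : C) (γ1 i).ne_zero (hle1 i) (psi i x))
    (y : (F1r C c1 ⊗[RatFunc C] K)ˣ)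
    (hord : ∀ x : K, x ≠ 0 → (∃ z : (F1r C c1 ⊗[RatFunc C] K)ˣ,
      (y : F1r C c1 ⊗[RatFunc C] K) = (1 ⊗ₜ[RatFunc C] x) * (z : F1r C c1 ⊗[RatFunc C] K) ^ q) →
      ∀ i, DivAnn q ‖(γ1 i : C)‖ (psi i x : F0 C))
    (hW : ∀ i, (q : ℤ) ∣ wind C (Φ1 (bc (RatFunc C) (F1r C c1) (F0r C c1) K y) i)) :
    ∃ z : F0r C c ⊗[RatFunc C] K, resE c c1 hcc K (y : F1r C c1 ⊗[RatFunc C] K) = z ^ q := by
  have hq0 : q ≠ 0 := by rintro rfl; simp at hq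
  have hK : ∃ x : F0r C c1, 1 < ‖x‖ := by
    obtain ⟨a, ha⟩ := NormedField.exists_one_lt_norm C
    exact ⟨algebraMap C (F0 C) a, by
      change 1 < ‖algebraMap C (F0 C) a‖
      rwa [norm_algebraMap_C]⟩
  have hd : DenseRange (algebraMap (RatFunc C) (F0r C c1)) := by
    have h := denseRange_algebraMap (C := C)
    have h2 : Function.Surjective (scale (c1 : C) c1.ne_zero) :=
      (scale (c1 : C) c1.ne_zero).surjective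
    change Dense (Set.range ((algebraMap (RatFunc C) (F0 C)) ∘ (scale (c1 : C) c1.ne_zero)))
    rw [h2.range_comp]
    exact h
  have hn : (q : F0r C c1) ≠ 0 := by
    intro h
    apply hq
    have h2 : (q : F0 C) = 0 := h
    rw [← norm_eq_zero, ← norm_algebraMap_C, map_natCast, h2, norm_zero]
  obtain ⟨x, hx, z, hz⟩ := exists_glob1 (patch c1) hK hd hn y
  have hDiv := hord x hx ⟨z, hz⟩
  have hpx : ∀ i, psi i x ≠ 0 := fun i => (_root_.map_ne_zero _).2 hx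
  -- windings at `c1`
  have hW1 : ∀ i, (q : ℤ) ∣ wind C (sub2 (γ1 i : C) (γ1 i).ne_zero (hle1 i) (psi i x) : F0 C) := by
    intro i
    have h2 := hW i
    have hZ : Φ1 (bc (RatFunc C) (F1r C c1) (F0r C c1) K z) i ≠ 0 := by
      have : IsUnit (Φ1 (bc (RatFunc C) (F1r C c1) (F0r C c1) K z)) :=
        (z.isUnit.map (bc (RatFunc C) (F1r C c1) (F0r C c1) K)).map Φ1
      exact ((Pi.isUnit_iff.1 this) i).ne_zero
    have hX : ((sub2 (γ1 i : C) (γ1 i).ne_zero (hle1 i) (psi i x) : F2 C) : F0 C) ≠ 0 := by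
      intro h3
      exact hpx i ((_root_.map_eq_zero _).1 (Subtype.ext h3))
    have e : Φ1 (bc (RatFunc C) (F1r C c1) (F0r C c1) K y) i =
        (sub2 (γ1 i : C) (γ1 i).ne_zero (hle1 i) (psi i x) : F0 C) *
          (Φ1 (bc (RatFunc C) (F1r C c1) (F0r C c1) K z) i) ^ q := by
      rw [hz, map_mul, map_pow, bc_tmul, map_one, map_mul, map_pow, Pi.mul_apply, Pi.pow_apply,
        hΦ1x]
    rw [e, wind_mul hX (pow_ne_zero _ hZ), ← zpow_natCast, wind_zpow hZ] at h2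
    have h3 : (q : ℤ) ∣ (q : ℤ) * wind C (Φ1 (bc (RatFunc C) (F1r C c1) (F0r C c1) K z) i) :=
      dvd_mul_right _ _
    exact (dvd_add_left h3).1 h2
  have hpow : ∀ i, ∃ w : F0 C, w ≠ 0 ∧
      (sub2 (γ i : C) (γ i).ne_zero (hle i) (psi i x) : F0 C) = w ^ q := fun i =>
    divAnn_pow hq (hpx i) (γ i) (γ1 i) (h1 i) (hle i) (hle1 i) (hρ i) (hDiv i) (hW1 i)
  choose w hw0 hw using hpow
  obtain ⟨u, hu⟩ := hΦ.2 w
  have hux : (1 : F0r C c) ⊗ₜ[RatFunc C] x = u ^ q := by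
    apply hΦ.1
    funext i
    rw [hΦx, map_pow, Pi.pow_apply, hu, hw]
  refine ⟨u * resE c c1 hcc K z, ?_⟩
  rw [hz, map_mul, map_pow, resE_tmul, hux, mul_pow]

end Main

end

end P025H469
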