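import Vale.Agent.P025.R2.H373.Gauss
import Vale.Agent.P025.R2.H210.Ram2
import Vale.Agent.P025.R2.H469.Annulus2

/-!
# P025: the winding number of a norm for `t ↦ t ^ n`

`E = F0` as an algebra over `F0` through `t ↦ t ^ n`: the winding number of the norm is the winding
number.
-/

set_option linter.unusedSectionVars false

open Polynomial

universe u v

namespace P025H469

open P025H373 P025H210

noncomputable section

variable {C : Type u} [NontriviallyNormedField C] [IsUltrametricDist C] [CompleteSpace C]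
  [IsAlgClosed C]

/-- additive functions on `F0ˣ` -/
structure IsAdd (W : F0 C → ℤ) : Prop where
  mul : ∀ x y, x ≠ 0 → y ≠ 0 → W (x * y) = W x + W y

namespace IsAdd

variable {W : F0 C → ℤ}

theorem one (hW : IsAdd W) : W 1 = 0 := by
  have := hW.mul 1 1 one_ne_zero one_ne_zero
  rw [mul_one] at this
  omega

theorem pow (hW : IsAdd W) {x : F0 C} (hx : x ≠ 0) (n : ℕ) : W (x ^ n) = n * W x := by
  induction n with
  | zero => simp [hW.one]
  | succ n ih => rw [pow_succ, hW.mul _ _ (pow_ne_zero _ hx) hx, ih]; push_cast; ring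

theorem inv (hW : IsAdd W) {x : F0 C} (hx : x ≠ 0) : W x⁻¹ = - W x := by
  have := hW.mul x x⁻¹ hx (inv_ne_zero hx)
  rw [mul_inv_cancel₀ hx, hW.one] at this
  omega

theorem const (hW : IsAdd W) (c : C) (hc : c ≠ 0) : W (algebraMap C (F0 C) c) = 0 := by
  -- divisibility of `Cˣ`
  have key : ∀ k : ℕ, ((2 : ℤ) ^ k) ∣ W (algebraMap C (F0 C) c) := by
    intro k
    obtain ⟨z, hz⟩ := IsAlgClosed.exists_pow_nat_eq c (n := 2 ^ k) (by positivity)
    have hz0 : z ≠ 0 := by
      rintro rfl
      rw [zero_pow (by positivity)] at hz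
      exact hc hz.symm
    rw [← hz, map_pow, hW.pow ((_root_.map_ne_zero _).2 hz0)]
    push_cast
    exact dvd_mul_right _ _
  by_contra h
  obtain ⟨k, hk⟩ := pow_unbounded_of_one_lt (|W (algebraMap C (F0 C) c)|) (one_lt_two (α := ℤ))
  have := Int.eq_zero_of_abs_lt_dvd (key k) hk
  exact h this

theorem one_add (hW : IsAdd W) {h : F0 C} (hh : ‖h‖ < 1) : W (1 + h) = 0 := by
  -- a prime `ℓ` with `‖ℓ‖ = 1`
  obtain ⟨l, hl2, hl⟩ : ∃ l : ℕ, 2 ≤ l ∧ ‖(l : C)‖ = 1 := by
    by_cases h2 : ‖((2 : ℕ) : C)‖ = 1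
    · exact ⟨2, le_rfl, h2⟩
    · refine ⟨3, by norm_num, ?_⟩
      have h3 : ‖((2 : ℕ) : C)‖ < 1 := lt_of_le_of_ne (norm_natCast_le_one' 2) h2
      have h4 := IsUltrametricDist.norm_add_eq_max_of_norm_ne_norm
        (x := ((2 : ℕ) : C)) (y := (1 : C)) (by rw [norm_one]; exact h3.ne)
      have h5 : ((2 : ℕ) : C) + 1 = ((3 : ℕ) : C) := by push_cast; norm_num
      rw [← h5, h4, norm_one, max_eq_right h3.le]
  have hx0 : (1 + h) ≠ 0 := by
    intro h1
    have h2 : h = -1 := by rw [eq_neg_iff_add_eq_zero, add_comm]; exact h1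
    rw [h2, norm_neg, norm_one] at hh
    exact lt_irrefl _ hh
  have key : ∀ k : ℕ, ((l : ℤ) ^ k) ∣ W (1 + h) := by
    intro k
    have hlk : ‖((l ^ k : ℕ) : C)‖ = 1 := by push_cast; rw [norm_pow, hl, one_pow]
    have hlk0 : ((l ^ k : ℕ) : C) ≠ 0 := by
      rw [← norm_ne_zero_iff, hlk]; exact one_ne_zero
    obtain ⟨y, -, hy, -⟩ := exists_pow_eq (C := C) (A := F0 C) (⊤ : Subring (F0 C))
      (by simp) (fun c => Subring.mem_top _) hlk0 (Subring.mem_top (1 + h))
      (by rw [hlk, one_pow, add_sub_cancel_left]; exact hh)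
    have hy0 : y ≠ 0 := by
      rintro rfl
      rw [zero_pow (by positivity)] at hy
      exact hx0 hy.symm
    rw [← hy, hW.pow hy0]
    push_cast
    exact dvd_mul_right _ _
  by_contra h
  obtain ⟨k, hk⟩ := pow_unbounded_of_one_lt (|W (1 + _)|) (show (1 : ℤ) < l by exact_mod_cast hl2)
  exact h (Int.eq_zero_of_abs_lt_dvd (key k) hk)

theorem prod (hW : IsAdd W) (s : Multiset (F0 C)) (h : ∀ x ∈ s, x ≠ 0) :
    W s.prod = (s.map W).sum := by
  induction s using Multiset.induction_on with
  | empty => simp [hW.one]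
  | cons a s ih =>
    rw [Multiset.prod_cons, Multiset.map_cons, Multiset.sum_cons,
      hW.mul _ _ (h a (Multiset.mem_cons_self _ _))
        (Multiset.prod_ne_zero fun h0 => h 0 (Multiset.mem_cons_of_mem h0) rfl),
      ih fun x hx => h x (Multiset.mem_cons_of_mem hx)]

theorem aeval_eq (hW : IsAdd W) {P : C[X]} (hP : P ≠ 0) : W (aeval (tt C) P) =
    (P.roots.map fun b => W (tt C - algebraMap C (F0 C) b)).sum := by
  have hne : ∀ b : C, tt C - algebraMap C (F0 C) b ≠ 0 := by
    intro b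
    have := lin_ne_zero (C := C) one_ne_zero b
    rwa [map_one, one_mul] at this
  have hs : P.Splits := IsAlgClosed.splits P
  have e : aeval (tt C) P = algebraMap C (F0 C) P.leadingCoeff *
      (P.roots.map fun b => tt C - algebraMap C (F0 C) b).prod := by
    conv_lhs => rw [hs.eq_prod_roots]
    rw [map_mul, aeval_C, map_multiset_prod, Multiset.map_map]
    congr 2
    refine Multiset.map_congr rfl fun b _ => ?_
    simp
  have hl : P.leadingCoeff ≠ 0 := leadingCoeff_ne_zero.2 hP
  have h0 : ∀ x ∈ (P.roots.map fun b => tt C - algebraMap C (F0 C) b), x ≠ 0 := by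
    intro x hx
    obtain ⟨b, -, rfl⟩ := Multiset.mem_map.1 hx
    exact hne b
  rw [e, hW.mul _ _ ((_root_.map_ne_zero _).2 hl)
    (Multiset.prod_ne_zero fun h1 => h0 0 h1 rfl), hW.const _ hl, zero_add, hW.prod _ h0,
    Multiset.map_map]
  rfl

/-- an additive function on `F0ˣ` is determined by its values at `t - b`. -/
theorem ext {W W' : F0 C → ℤ} (hW : IsAdd W) (hW' : IsAdd W')
    (h : ∀ b : C, W (tt C - algebraMap C (F0 C) b) = W' (tt C - algebraMap C (F0 C) b))
    {x : F0 C} (hx : x ≠ 0) : W x = W' x := by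
  have hpoly : ∀ P : C[X], P ≠ 0 → W (aeval (tt C) P) = W' (aeval (tt C) P) := by
    intro P hP
    rw [hW.aeval_eq hP, hW'.aeval_eq hP]
    exact congrArg Multiset.sum (Multiset.map_congr rfl fun b _ => h b)
  have hxp : 0 < ‖x‖ := norm_pos_iff.2 hx
  obtain ⟨r, hr⟩ := exists_rat_near x hxp
  have hr0 : r ≠ 0 := by
    rintro rfl
    rw [map_zero, sub_zero] at hr
    exact lt_irrefl _ hr
  have hn : r.num ≠ 0 := RatFunc.num_ne_zero hr0
  have hd : r.denom ≠ 0 := r.denom_ne_zero
  have hrA : algebraMap (RatFunc C) (F0 C) r = aeval (tt C) r.num * (aeval (tt C) r.denom)⁻¹ := by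
    conv_lhs => rw [← r.num_div_denom]
    rw [map_div₀, algebraMap_poly, algebraMap_poly, div_eq_mul_inv]
  have hn' : aeval (tt C) r.num ≠ 0 := fun h => hn (aeval_inj.1 h)
  have hd' : aeval (tt C) r.denom ≠ 0 := fun h => hd (aeval_inj.1 h)
  have hrA0 : algebraMap (RatFunc C) (F0 C) r ≠ 0 := (_root_.map_ne_zero _).2 hr0
  have hnorm : ‖algebraMap (RatFunc C) (F0 C) r‖ = ‖x‖ := by
    have h1 := IsUltrametricDist.norm_add_eq_max_of_norm_ne_norm
      (x := x) (y := -(x - algebraMap (RatFunc C) (F0 C) r)) (by rw [norm_neg]; exact hr.ne')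
    rw [norm_neg, max_eq_left hr.le] at h1
    rw [← h1]
    congr 1
    ring
  set y : F0 C := (x - algebraMap (RatFunc C) (F0 C) r) * (algebraMap (RatFunc C) (F0 C) r)⁻¹
  have hy : ‖y‖ < 1 := by
    rw [norm_mul, norm_inv, hnorm, ← div_eq_mul_inv, div_lt_one hxp]
    exact hr
  have hxe : x = algebraMap (RatFunc C) (F0 C) r * (1 + y) := by
    simp only [y]
    field_simp
    ring
  have hy0 : 1 + y ≠ 0 := by
    intro h1
    rw [h1, mul_zero] at hxe
    exact hx hxe
  rw [hxe, hW.mul _ _ hrA0 hy0, hW'.mul _ _ hrA0 hy0, hW.one_add hy, hW'.one_add hy, hrA,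
    hW.mul _ _ hn' (inv_ne_zero hd'), hW'.mul _ _ hn' (inv_ne_zero hd'), hW.inv hd', hW'.inv hd',
    hpoly _ hn, hpoly _ hd]

end IsAdd

section Norm

variable {E : Type v} [CommRing E] [Algebra (F0 C) E] (e : E ≃+* F0 C) {n : ℕ} (hn : 0 < n)
  (he : ∀ a, e (algebraMap (F0 C) E a) = sb (near_pow hn) a)

/-- the linear map `a ↦ ∑ a i θ ^ i`, `θ = t`. -/
def linE : (Fin n → F0 C) →ₗ[F0 C] E :=
  Fintype.linearCombination (F0 C) fun i : Fin n => (e.symm (tt C)) ^ (i : ℕ)

include he in
theorem e_linE (a : Fin n → F0 C) : e (linE e a) = sbL (near_pow hn) a := by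
  rw [linE, Fintype.linearCombination_apply, map_sum, sbL_apply]
  refine Finset.sum_congr rfl fun i _ => ?_
  rw [Algebra.smul_def, map_mul, he, map_pow, RingEquiv.apply_symm_apply]

include he in
theorem linE_bijective : Function.Bijective (linE (n := n) e) := by
  constructor
  · intro a b hab
    apply sbL_injective (near_pow hn)
    rw [← e_linE e hn he, ← e_linE e hn he, hab]
  · intro y
    obtain ⟨a, ha⟩ := sbL_surjective (near_pow hn) (e y)
    exact ⟨a, e.injective (by rw [e_linE e hn he, ha])⟩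

/-- the power basis `1, t, …, t ^ (n-1)`. -/
def pbE : PowerBasis (F0 C) E where
  gen := e.symm (tt C)
  dim := n
  basis := Module.Basis.ofEquivFun (LinearEquiv.ofBijective _ (linE_bijective e hn he)).symm
  basis_eq_pow i := by
    classical
    rw [Module.Basis.coe_ofEquivFun, LinearEquiv.symm_symm]
    change linE e (Pi.single i 1) = _
    rw [linE, Fintype.linearCombination_apply_single, one_smul]

theorem minpoly_pbE : minpoly (F0 C) (pbE e hn he).gen = X ^ n - Polynomial.C (tt C) := by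
  have hg : (pbE e hn he).gen = e.symm (tt C) := rfl
  have hroot : aeval (pbE e hn he).gen (X ^ n - Polynomial.C (tt C)) = 0 := by
    rw [map_sub, map_pow, aeval_X, aeval_C, sub_eq_zero]
    apply e.injective
    rw [he, hg, map_pow, RingEquiv.apply_symm_apply, sb_tt]
  have hm : (X ^ n - Polynomial.C (tt C)).Monic := monic_X_pow_sub_C _ hn.ne'
  have hdvd := minpoly.dvd (F0 C) _ hroot
  have hint : IsIntegral (F0 C) (pbE e hn he).gen := (pbE e hn he).isIntegral_gen
  refine (Polynomial.eq_of_monic_of_dvd_of_natDegree_le (minpoly.monic hint) hm hdvd ?_).symm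
  rw [natDegree_X_pow_sub_C, (pbE e hn he).natDegree_minpoly]
  exact le_rfl

theorem norm_sub_gen (a : F0 C) : Algebra.norm (F0 C) (algebraMap (F0 C) E a - (pbE e hn he).gen) =
    a ^ n - tt C := by
  classical
  rw [Algebra.norm_eq_matrix_det (pbE e hn he).basis, map_sub, AlgHom.commutes]
  have h1 := charpoly_leftMulMatrix (pbE e hn he)
  have h2 := Matrix.eval_charpoly (Algebra.leftMulMatrix (pbE e hn he).basis (pbE e hn he).gen) a
  rw [h1, minpoly_pbE, eval_sub, eval_pow, eval_X, eval_C] at h2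
  rw [h2]
  rfl

end Norm

/-- **the winding number of a norm** -/
theorem wind_norm {E : Type v} [CommRing E] [Algebra (F0 C) E] (e : E ≃+* F0 C) {n : ℕ}
    (hn : 0 < n) (he : ∀ a, e (algebraMap (F0 C) E a) = sb (near_pow hn) a) {y : E}
    (hy : y ≠ 0) :
    wind C (Algebra.norm (F0 C) y) = wind C (e y) := by
  classical
  have hdom : IsDomain E := e.toMulEquiv.isDomain (F0 C)
  have hfin : Module.Finite (F0 C) E := (pbE e hn he).finite
  have hfree : Module.Free (F0 C) E := Module.Free.of_basis (pbE e hn he).basis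
  have hinj : ∀ x : F0 C, x ≠ 0 → e.symm x ≠ 0 := fun x hx h => hx (by
    have := congrArg e h
    rwa [RingEquiv.apply_symm_apply, map_zero] at this)
  have hW : IsAdd (C := C) fun x => wind C (Algebra.norm (F0 C) (e.symm x)) := by
    refine ⟨fun x y hx hy => ?_⟩
    rw [map_mul, map_mul, wind_mul]
    · exact Algebra.norm_ne_zero_iff.2 (hinj _ hx)
    · exact Algebra.norm_ne_zero_iff.2 (hinj _ hy)
  have hW' : IsAdd (C := C) (wind C) := ⟨fun x y hx hy => wind_mul hx hy⟩
  have key : ∀ b : C, wind C (Algebra.norm (F0 C) (e.symm (tt C - algebraMap C (F0 C) b))) =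
      wind C (tt C - algebraMap C (F0 C) b) := by
    intro b
    have h1 : e.symm (tt C - algebraMap C (F0 C) b) = -(algebraMap (F0 C) E
        (algebraMap C (F0 C) b) - (pbE e hn he).gen) := by
      apply e.injective
      rw [RingEquiv.apply_symm_apply, map_neg, map_sub, he, AlgHom.commutes]
      change _ = -(_ - e (e.symm (tt C)))
      rw [RingEquiv.apply_symm_apply]
      ring
    have hlin : ∀ b : C, wind C (tt C - algebraMap C (F0 C) b) = if ‖b‖ ≤ 1 then 1 else 0 := by
      intro b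
      have := wind_lin (C := C) one_ne_zero b
      rwa [map_one, one_mul, norm_one] at this
    have hne : ∀ b : C, tt C - algebraMap C (F0 C) b ≠ 0 := by
      intro b
      have := lin_ne_zero (C := C) one_ne_zero b
      rwa [map_one, one_mul] at this
    have h2 : Algebra.norm (F0 C) (e.symm (tt C - algebraMap C (F0 C) b)) =
        algebraMap C (F0 C) ((-1) ^ n * (-1)) * (tt C - algebraMap C (F0 C) (b ^ n)) := by
      have h5 : (-1 : E) = algebraMap (F0 C) E (-1) := by rw [map_neg, map_one]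
      rw [h1, ← neg_one_mul, map_mul, norm_sub_gen, h5,
        Algebra.norm_algebraMap, (pbE e hn he).finrank]
      change (-1) ^ n * _ = _
      rw [map_mul, map_pow, map_neg, map_one, map_pow]
      ring
    have h3 : ((-1 : C) ^ n * (-1)) ≠ 0 := by
      rw [← pow_succ]
      exact pow_ne_zero _ (neg_ne_zero.2 one_ne_zero)
    rw [h2, wind_mul ((_root_.map_ne_zero _).2 h3) (hne _), wind_const, zero_add, hlin, hlin,
      norm_pow]
    have h4 : ‖b‖ ^ n ≤ 1 ↔ ‖b‖ ≤ 1 := pow_le_one_iff_of_nonneg (norm_nonneg _) hn.ne'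
    by_cases hb : ‖b‖ ≤ 1
    · rw [if_pos hb, if_pos (h4.2 hb)]
    · rw [if_neg hb, if_neg fun h => hb (h4.1 h)]
  have hey : e y ≠ 0 := fun h => hy (e.injective (by rw [h, map_zero]))
  have := hW.ext hW' key hey
  simpa using this

end

end P025H469
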