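import Vale.Agent.P025.R2.H469.PlaceDV
import Vale.Agent.P025.R2.H469.Long
import Vale.Agent.P025.R2.H731.Conc

/-!
# P025: orders at the places of an annulus
-/

set_option linter.unusedSectionVars false

open Polynomial Vale.Agent.P019P P025H373 P025H731

universe u v

namespace P025H469

noncomputable section

variable {C : Type u} [NontriviallyNormedField C] [IsUltrametricDist C] [CompleteSpace C]
  [IsAlgClosed C]

theorem ord_eq_ordC {p : Plk C (RatFunc C)} {b : C}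
    (h : 0 < ord p (RatFunc.X - RatFunc.C b)) {r : RatFunc C} (hr : r ≠ 0) :
    ord p r = ordC b r := by
  have hn : r.num ≠ 0 := RatFunc.num_ne_zero hr
  have hd : r.denom ≠ 0 := r.denom_ne_zero
  conv_lhs => rw [← r.num_div_denom]
  rw [div_eq_mul_inv, ord_mul p (RatFunc.algebraMap_ne_zero hn)
    (inv_ne_zero (RatFunc.algebraMap_ne_zero hd)), ord_inv, ord_poly_eq h hn, ord_poly_eq h hd,
    ord_X_sub h, mul_one, mul_one]
  rfl

/-- the polynomial `c (X ^ N - b ^ N)` has a simple root at `b`. -/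
theorem rootMultiplicity_aux [CharZero C] {N : ℕ} (hN : 0 < N) {c b : C} (hc : c ≠ 0)
    (hb : b ≠ 0) : (Polynomial.C c * (X ^ N - Polynomial.C (b ^ N))).rootMultiplicity b = 1 := by
  set Q : C[X] := Polynomial.C c * (X ^ N - Polynomial.C (b ^ N)) with hQ
  have hQ0 : Q ≠ 0 := mul_ne_zero (C_ne_zero.2 hc) (X_pow_sub_C_ne_zero hN _)
  have hroot : Q.IsRoot b := by
    rw [IsRoot, hQ, eval_mul, eval_sub, eval_pow, eval_X, eval_C, eval_C, sub_self, mul_zero]
  have hder : ¬ (derivative Q).IsRoot b := by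
    rw [IsRoot, hQ, derivative_C_mul, derivative_sub, derivative_C, sub_zero, derivative_X_pow,
      eval_mul, eval_mul, eval_C, eval_C, eval_pow, eval_X]
    have h1 : (N : C) ≠ 0 := Nat.cast_ne_zero.2 hN.ne'
    exact mul_ne_zero hc (mul_ne_zero h1 (pow_ne_zero _ hb))
  have h1 : 0 < Q.rootMultiplicity b := (rootMultiplicity_pos hQ0).2 hroot
  have h2 : ¬ 1 < Q.rootMultiplicity b := by
    intro h
    exact hder ((one_lt_rootMultiplicity_iff_isRoot hQ0).1 h).2
  omega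

/-- The place of `K` at the point `b`, `1 < ‖b‖`, of a chart `psi : K → F2`, `T ↦ c0 t ^ N`. -/
theorem exists_place_chart [CharZero C] {K : Type v} [Field K] [Algebra C K] [CFF C K]
    (psi : K →ₐ[C] F2 C) {T : K} {N : ℕ} (hN : 0 < N) {c0 : C} (hc0 : c0 ≠ 0)
    (hT : psi T = algebraMap (RatFunc C) (F2 C) (RatFunc.C c0 * RatFunc.X ^ N))
    {b : C} (hb : 1 < ‖b‖) : ∃ P : Plk C K, 0 < ord P (T - algebraMap C K (c0 * b ^ N)) ∧
      ∀ (x : K), x ≠ 0 → ∀ (r : RatFunc C) (h : F0 C), r ≠ 0 → h ∈ A2 C → ‖h‖ < 1 →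
        (psi x : F0 C) = algebraMap (RatFunc C) (F0 C) r * (1 + h) → ord P x = ordC b r := by
  obtain ⟨p, hp⟩ := exists_place (C := C) b
  have hP := pnt2 hp hb
  have hb0 : b ≠ 0 := by
    rintro rfl
    rw [norm_zero] at hb
    exact absurd hb (not_lt.2 zero_le_one)
  have hdv : DV fun x => wi (A2 C) (F2 C) (ord p) (psi x) :=
    DV.comp (hP.wi_dv (half2 C)) (psi : K →+* F2 C)
  have hc : ∀ a : C, wi (A2 C) (F2 C) (ord p) (psi (algebraMap C K a)) = 0 := by
    intro a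
    rw [AlgHom.commutes]
    have h1 : algebraMap C (F2 C) a = algebraMap (RatFunc C) (F2 C) (RatFunc.C a) := rfl
    rw [h1, hP.wi_algebraMap (half2 C), ord_C]
  have hTb : wi (A2 C) (F2 C) (ord p) (psi (T - algebraMap C K (c0 * b ^ N))) = 1 := by
    have h1 : psi (T - algebraMap C K (c0 * b ^ N)) = algebraMap (RatFunc C) (F2 C)
        (algebraMap C[X] (RatFunc C) (Polynomial.C c0 * (X ^ N - Polynomial.C (b ^ N)))) := by
      rw [map_sub, hT, AlgHom.commutes]
      have h2 : algebraMap C (F2 C) (c0 * b ^ N) =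
          algebraMap (RatFunc C) (F2 C) (RatFunc.C (c0 * b ^ N)) := rfl
      rw [h2, ← map_sub]
      congr 1
      have h3 : algebraMap C[X] (RatFunc C) (Polynomial.C c0 * (X ^ N - Polynomial.C (b ^ N))) =
          RatFunc.C c0 * (RatFunc.X ^ N - RatFunc.C (b ^ N)) := by
        rw [map_mul, map_sub, map_pow, RatFunc.algebraMap_X, RatFunc.algebraMap_C,
          RatFunc.algebraMap_C]
      rw [h3, map_mul]
      ring
    rw [h1, hP.wi_algebraMap (half2 C), ord_poly_eq hp, rootMultiplicity_aux hN hc0 hb0,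
      ord_X_sub hp]
    · norm_num
    · exact mul_ne_zero (C_ne_zero.2 hc0) (X_pow_sub_C_ne_zero hN _)
  obtain ⟨P, e, he, hPe, -⟩ := exists_place_of_dv hdv hc ⟨_, by rw [hTb]; exact one_ne_zero⟩
  have h1 : (e : ℤ) * ord P (T - algebraMap C K (c0 * b ^ N)) = 1 := by rw [← hPe, hTb]
  have he1 : (e : ℤ) = 1 := by
    rcases Int.eq_one_or_neg_one_of_mul_eq_one h1 with h | h
    · exact h
    · omega
  rw [he1, one_mul] at h1
  refine ⟨P, by rw [h1]; exact one_pos, fun x hx r h hr hh hh1 hxe => ?_⟩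
  have h2 := hPe x
  rw [he1, one_mul] at h2
  rw [← h2, hP.wi_eq (half2 C) hr hh hh1 hxe]
  exact ord_eq_ordC hp hr

/-- orders divisible by `q` on the annulus `‖c0‖ < |T| ≤ R`. -/
theorem divAnn_of_ord [CharZero C] {K : Type v} [Field K] [Algebra C K] [CFF C K]
    (psi : K →ₐ[C] F2 C) {T : K} {N : ℕ} (hN : 0 < N) {c0 : C} (hc0 : c0 ≠ 0)
    (hT : psi T = algebraMap (RatFunc C) (F2 C) (RatFunc.C c0 * RatFunc.X ^ N))
    {q : ℕ} {ρ R : ℝ} (hR : ‖c0‖ * ρ ^ N ≤ R) {x : K} (hx : x ≠ 0)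
    (hord : ∀ (P : Plk C K) (a : C), 0 < ord P (T - algebraMap C K a) → ‖c0‖ < ‖a‖ →
      ‖a‖ ≤ R → (q : ℤ) ∣ ord P x) : DivAnn q ρ (psi x : F0 C) := by
  intro r h hr hh hh1 hxe b hb hbρ
  obtain ⟨P, hP, hPx⟩ := exists_place_chart psi hN hc0 hT hb
  rw [← hPx x hx r h hr hh hh1 hxe]
  have hcp : 0 < ‖c0‖ := norm_pos_iff.2 hc0
  refine hord P _ hP ?_ ?_
  · rw [norm_mul, norm_pow]
    have : 1 < ‖b‖ ^ N := one_lt_pow₀ hb hN.ne'
    exact lt_mul_of_one_lt_right hcp this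
  · rw [norm_mul, norm_pow]
    refine le_trans ?_ hR
    gcongr

end

end P025H469
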