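import Vale.Agent.P025.R2.H210.Pts
import Vale.Agent.P025.R2.H613.Wind
import Vale.Agent.P025.R2.H469.OrdAnn
import Vale.Agent.P025.R2.H469.NormWind

/-!
# P025 G-DISC: (5.2) for the charts of `H210`
-/

set_option linter.unusedSectionVars false
set_option linter.style.haveILetI false

open Polynomial TensorProduct Vale.Agent.P019P P025H373 P025H544 P025H628 P025H210 P025H613

universe u v

namespace P025H469

noncomputable section

variable {C : Type u} [NontriviallyNormedField C] [IsUltrametricDist C] [CompleteSpace C]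
  [IsAlgClosed C] [CharZero C]
  {K : Type v} [Field K] [Algebra C K] [Algebra (RatFunc C) K] [IsScalarTower C (RatFunc C) K]
  [FiniteDimensional (RatFunc C) K] [CFF C K]

theorem ch0_inc (D : Charts C K) (P : Pole C K) (γ c : Cˣ) (hc : γ ^ P.N = c)
    (hr : D.r0 ≤ ‖(c : C)‖) (x : K) :
    D.ch0 P γ c hc hr (1 ⊗ₜ x) = (D.ψ P γ x : F0 C) := by
  rw [Charts.ch0_tmul]
  have : pow0 P.N P.N_pos (show F0 C from (1 : F0r C c)) = 1 := map_one _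
  rw [this, one_mul]

theorem ch0_left (D : Charts C K) (P : Pole C K) (γ c : Cˣ) (hc : γ ^ P.N = c)
    (hr : D.r0 ≤ ‖(c : C)‖) (a : F0r C c) :
    D.ch0 P γ c hc hr (a ⊗ₜ 1) = pow0 P.N P.N_pos (show F0 C from a) := by
  rw [Charts.ch0_tmul, map_one]
  exact mul_one _

/-- The winding number at an edge is the winding number in the chart. -/
theorem wd_wP (D : Charts C K) (P : Pole C K) (γ c : Cˣ) (hc : γ ^ P.N = c)
    (hr : D.r0 ≤ ‖(c : C)‖) (x : F0r C c ⊗[RatFunc C] K) (hx : IsUnit x) :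
    wd (F0 := F0r C c) (wind C) (D.wP c hr P) x = wind C (D.ch0 P γ c hc hr x) := by
  set w := D.wP c hr P with hw
  have hker : RingHom.ker (D.ch0 P γ c hc hr) = w.asIdeal := D.ker_ch0 P γ c hc hr
  let e1 : ((F0r C c ⊗[RatFunc C] K) ⧸ w.asIdeal) ≃+*
      ((F0r C c ⊗[RatFunc C] K) ⧸ RingHom.ker (D.ch0 P γ c hc hr)) :=
    Ideal.quotEquivOfEq hker.symm
  let e : ((F0r C c ⊗[RatFunc C] K) ⧸ w.asIdeal) ≃+* F0 C :=
    e1.trans (RingHom.quotientKerEquivOfSurjective (D.ch0_surjective P γ c hc hr))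
  have he1 : ∀ z, e (Ideal.Quotient.mk w.asIdeal z) = D.ch0 P γ c hc hr z := fun z => rfl
  letI iA : Algebra (F0 C) ((F0r C c ⊗[RatFunc C] K) ⧸ w.asIdeal) :=
    (inferInstance : Algebra (F0r C c) ((F0r C c ⊗[RatFunc C] K) ⧸ w.asIdeal))
  have he : ∀ a : F0 C, e (algebraMap (F0 C) ((F0r C c ⊗[RatFunc C] K) ⧸ w.asIdeal) a) =
      sb (near_pow P.N_pos) a := by
    intro a
    have h1 : algebraMap (F0 C) ((F0r C c ⊗[RatFunc C] K) ⧸ w.asIdeal) a =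
        Ideal.Quotient.mk w.asIdeal ((show F0r C c from a) ⊗ₜ 1) := rfl
    rw [h1, he1, ch0_left]
    rfl
  have h2 : Ideal.Quotient.mk w.asIdeal x ≠ 0 := by
    intro h
    have h3 := he1 x
    rw [h, map_zero] at h3
    have h4 : IsUnit (D.ch0 P γ c hc hr x) := hx.map _
    rw [← h3] at h4
    exact not_isUnit_zero h4
  have := wind_norm e P.N_pos he h2
  rw [he1] at this
  exact this

/-- **(5.2)** Long annuli. -/
theorem long_charts {q : ℕ} (hq : (q : C) ≠ 0) (D : Charts C K) (c0 c c1 : Cˣ)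
    (h0 : D.r0 ≤ ‖(c0 : C)‖) (h0c : ‖(c0 : C)‖ ≤ ‖(c : C)‖) (hcc : ‖(c : C)‖ ≤ ‖(c1 : C)‖)
    (h1 : ∀ P : Pole C K, ‖(c0 : C)‖ < ‖(c : C)‖ * (‖(q : C)‖ ^ 2) ^ P.N)
    (h2 : ∀ P : Pole C K, ‖(c : C)‖ ≤ ‖(c1 : C)‖ * (‖(q : C)‖ ^ 2) ^ P.N)
    (y : (F1r C c1 ⊗[RatFunc C] K)ˣ)
    (hord : ∀ (P : Plk C K) (a : C), 0 < ord P (TT C K - algebraMap C K a) →
      ‖(c0 : C)‖ < ‖a‖ → ‖a‖ ≤ ‖(c1 : C)‖ → ∃ v : F1r C c1 ⊗[RatFunc C] K → ℤ,
        (∀ x z, IsUnit x → IsUnit z → v (x * z) = v x + v z) ∧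
        (∀ x : K, x ≠ 0 → v (1 ⊗ₜ x) = ord P x) ∧ (q : ℤ) ∣ v y)
    (hW : ∀ w : Pt (RatFunc C) (F0r C c1) K,
      (q : ℤ) ∣ wd (F0 := F0r C c1) (wind C) w (bc (RatFunc C) (F1r C c1) (F0r C c1) K y)) :
    ∃ z : F0r C c ⊗[RatFunc C] K, resE c c1 hcc K (y : F1r C c1 ⊗[RatFunc C] K) = z ^ q := by
  have hq0 : q ≠ 0 := by rintro rfl; simp at hq
  have hqp : 0 < ‖(q : C)‖ ^ 2 := by positivity
  have hroot : ∀ (d : Cˣ) (P : Pole C K), ∃ γ : Cˣ, γ ^ P.N = d := by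
    intro d P
    obtain ⟨z, hz⟩ := IsAlgClosed.exists_pow_nat_eq (d : C) P.N_pos
    have hz0 : z ≠ 0 := by
      rintro rfl
      rw [zero_pow P.N_pos.ne'] at hz
      exact d.ne_zero hz.symm
    exact ⟨Units.mk0 z hz0, Units.ext hz⟩
  choose γ0 hγ0 using hroot c0
  choose γ hγ using hroot c
  choose γ1 hγ1 using hroot c1
  have hc0p : 0 < ‖(c0 : C)‖ := norm_pos_iff.2 c0.ne_zero
  have hrc : D.r0 ≤ ‖(c : C)‖ := h0.trans h0c
  have hrc1 : D.r0 ≤ ‖(c1 : C)‖ := hrc.trans hcc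
  have n0 : ∀ P, ‖(γ0 P : C)‖ ^ P.N = ‖(c0 : C)‖ := fun P => by
    rw [← norm_pow, ← Units.val_pow_eq_pow_val, hγ0]
  have n1 : ∀ P, ‖(γ P : C)‖ ^ P.N = ‖(c : C)‖ := fun P => by
    rw [← norm_pow, ← Units.val_pow_eq_pow_val, hγ]
  have n2 : ∀ P, ‖(γ1 P : C)‖ ^ P.N = ‖(c1 : C)‖ := fun P => by
    rw [← norm_pow, ← Units.val_pow_eq_pow_val, hγ1]
  have nd : ∀ (d : Pole C K → Cˣ) P, ‖(((γ0 P)⁻¹ * d P : Cˣ) : C)‖ =
      ‖(d P : C)‖ / ‖(γ0 P : C)‖ := fun d P => by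
    rw [Units.val_mul, norm_mul, Units.val_inv_eq_inv_val, norm_inv, div_eq_inv_mul]
  have p0 : ∀ P, 0 < ‖(γ0 P : C)‖ := fun P => norm_pos_iff.2 (γ0 P).ne_zero
  have hle : ∀ P, 1 ≤ ‖(((γ0 P)⁻¹ * γ P : Cˣ) : C)‖ := fun P => by
    rw [nd γ P, one_le_div (p0 P)]
    refine le_of_pow_le_pow_left₀ P.N_pos.ne' (norm_nonneg _) ?_
    rw [n0, n1]; exact h0c
  have hle1 : ∀ P, 1 ≤ ‖(((γ0 P)⁻¹ * γ1 P : Cˣ) : C)‖ := fun P => by
    rw [nd γ1 P, one_le_div (p0 P)]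
    refine le_of_pow_le_pow_left₀ P.N_pos.ne' (norm_nonneg _) ?_
    rw [n0, n2]; exact h0c.trans hcc
  have hψ : ∀ (d : Pole C K → Cˣ) (P : Pole C K)
      (hd : 1 ≤ ‖(((γ0 P)⁻¹ * d P : Cˣ) : C)‖) (x : K),
      (D.ψ P (d P) x : F0 C) = sub2 (((γ0 P)⁻¹ * d P : Cˣ) : C) ((γ0 P)⁻¹ * d P).ne_zero hd
        (D.ψ P (γ0 P) x) := by
    intro d P hd x
    have h3 := D.scale P (γ0 P) ((γ0 P)⁻¹ * d P) (by rw [n0]; exact h0) hd x
    rw [← h3, mul_inv_cancel_left]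
  refine long_main hq c c1 hcc (fun P : Pole C K => (D.ψ P (γ0 P) : K →+* F2 C))
    (fun P => (γ0 P)⁻¹ * γ P) (fun P => (γ0 P)⁻¹ * γ1 P) ?_ hle hle1 ?_
    (RingHom.pi fun P => D.ch0 P (γ P) c (hγ P) hrc) (D.bij0 c hrc γ hγ) ?_
    (RingHom.pi fun P => D.ch0 P (γ1 P) c1 (hγ1 P) hrc1) ?_ y ?_ ?_
  · intro P
    rw [nd γ P, div_mul_eq_mul_div, one_lt_div (p0 P)]
    refine lt_of_pow_lt_pow_left₀ P.N (by positivity) ?_
    rw [mul_pow, n0, n1]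
    exact h1 P
  · intro P
    rw [nd γ P, nd γ1 P, div_mul_eq_mul_div, div_le_div_iff_of_pos_right (p0 P)]
    refine le_of_pow_le_pow_left₀ P.N_pos.ne' (by positivity) ?_
    rw [mul_pow, n1, n2]
    exact h2 P
  · intro x P
    rw [RingHom.pi_apply, ch0_inc]
    exact hψ γ P (hle P) x
  · intro x P
    rw [RingHom.pi_apply, ch0_inc]
    exact hψ γ1 P (hle1 P) x
  · rintro x hx ⟨z, hz⟩ P
    have hT : D.ψ P (γ0 P) (TT C K) = algebraMap (RatFunc C) (F2 C)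
        (RatFunc.C (c0 : C) * RatFunc.X ^ P.N) := by
      have e1 : ((γ0 P : C)) ^ P.N = (c0 : C) := by rw [← Units.val_pow_eq_pow_val, hγ0]
      rw [D.map_T P (γ0 P) (by rw [n0]; exact h0), e1, map_mul, map_pow]
      rfl
    refine divAnn_of_ord (D.ψ P (γ0 P)) P.N_pos c0.ne_zero hT (R := ‖(c1 : C)‖) ?_ hx ?_
    · rw [nd γ1 P, div_pow, n0, n2, mul_div_cancel₀ _ hc0p.ne']
    · intro Q a hQ ha ha1
      obtain ⟨v, hv1, hv2, hv3⟩ := hord Q a hQ ha ha1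
      have hxu : IsUnit ((1 : F1r C c1) ⊗ₜ[RatFunc C] x) :=
        (IsUnit.mk0 x hx).map (Algebra.TensorProduct.includeRight : K →ₐ[RatFunc C]
          F1r C c1 ⊗[RatFunc C] K)
      have hpow : ∀ m : ℕ, v ((z : F1r C c1 ⊗[RatFunc C] K) ^ m) = m * v z := by
        intro m
        induction m with
        | zero =>
          have h3 := hv1 1 1 isUnit_one isUnit_one
          rw [mul_one] at h3
          rw [pow_zero]; push_cast; omega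
        | succ m ih => rw [pow_succ, hv1 _ _ (z.isUnit.pow m) z.isUnit, ih]; push_cast; ring
      rw [hz, hv1 _ _ hxu (z.isUnit.pow q), hv2 x hx, hpow] at hv3
      exact (dvd_add_left (dvd_mul_right _ _)).1 hv3
  · intro P
    rw [RingHom.pi_apply]
    have hu : IsUnit (bc (RatFunc C) (F1r C c1) (F0r C c1) K (y : F1r C c1 ⊗[RatFunc C] K)) :=
      y.isUnit.map _
    rw [← wd_wP D P (γ1 P) c1 (hγ1 P) hrc1 _ hu]
    exact hW _

end

end P025H469
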