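import Vale.Agent.P025.R2.H816.J03
import Vale.Agent.P025.R2.H731.Rat

/-!
# P025: places from discrete valuations
-/

open Polynomial Vale.Agent.P019P P025H731

namespace P025H469

section

variable {k K : Type*} [Field k] [Field K] [Algebra k K] [CFF k K]

lemma DV.one_add_inv {F : Type*} [Field F] {f : F → ℤ} (h : DV f) {x : F} (hx : x ≠ 0) :
    f x⁻¹ = - f x := by
  have h1 := h.mul x x⁻¹ hx (inv_ne_zero hx)
  rw [mul_inv_cancel₀ hx, h.one] at h1
  omega

/-- the valuation ring of a discrete valuation -/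
def ringOfDV {F : Type*} [Field F] {f : F → ℤ} (h : DV f) : ValuationSubring F where
  carrier := {x | x = 0 ∨ 0 ≤ f x}
  mul_mem' := by
    rintro x y (rfl | hx) (rfl | hy)
    · left; simp
    · left; simp
    · left; simp
    · by_cases hx0 : x = 0
      · left; simp [hx0]
      by_cases hy0 : y = 0
      · left; simp [hy0]
      right
      rw [h.mul _ _ hx0 hy0]
      omega
  one_mem' := Or.inr (by rw [h.one])
  add_mem' := by
    rintro x y (rfl | hx) (rfl | hy)
    · left; simp
    · right; rwa [zero_add]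
    · right; rwa [add_zero]
    · by_cases hx0 : x = 0
      · right; rw [hx0, zero_add]; exact hy
      by_cases hy0 : y = 0
      · right; rw [hy0, add_zero]; exact hx
      by_cases hxy : x + y = 0
      · exact Or.inl hxy
      right
      have := h.add _ _ hx0 hy0 hxy
      omega
  zero_mem' := Or.inl rfl
  neg_mem' := by
    rintro x (rfl | hx)
    · left; simp
    · right; rwa [h.neg]
  mem_or_inv_mem' := by
    intro x
    by_cases hx0 : x = 0
    · left; exact Or.inl hx0
    by_cases hx : 0 ≤ f x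
    · left; exact Or.inr hx
    · right
      right
      rw [DV.one_add_inv h hx0]
      omega

lemma mem_ringOfDV {F : Type*} [Field F] {f : F → ℤ} (h : DV f) (x : F) :
    x ∈ ringOfDV h ↔ x = 0 ∨ 0 ≤ f x := Iff.rfl

/-- A nontrivial discrete valuation of `K`, trivial on `k`, is a positive multiple of the order at
a place. -/
theorem exists_place_of_dv {v : K → ℤ} (hv : DV v) (hk : ∀ a : k, v (algebraMap k K a) = 0)
    (hne : ∃ y, v y ≠ 0) : ∃ (P : Plk k K) (e : ℕ), 0 < e ∧ (∀ y, v y = e * ord P y) ∧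
      ∀ x, x ∈ P.1 ↔ x = 0 ∨ 0 ≤ v x := by
  obtain ⟨y, hy⟩ := hne
  have hy0 : y ≠ 0 := by
    rintro rfl
    exact hy hv.zero
  have htop : ringOfDV hv ≠ ⊤ := by
    intro ht
    have h1 : y ∈ ringOfDV hv := by rw [ht]; exact ValuationSubring.mem_top _
    have h2 : y⁻¹ ∈ ringOfDV hv := by rw [ht]; exact ValuationSubring.mem_top _
    rw [mem_ringOfDV] at h1 h2
    have h3 := h1.resolve_left hy0
    have h4 := h2.resolve_left (inv_ne_zero hy0)
    rw [DV.one_add_inv hv hy0] at h4
    omega
  have hconst : ∀ a : k, algebraMap k K a ∈ ringOfDV hv := fun a => by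
    rw [mem_ringOfDV, hk]
    exact Or.inr le_rfl
  set P : Plk k K := ⟨ringOfDV hv, hconst, htop⟩ with hP
  have hmem : ∀ x, x ∈ P.1 ↔ x = 0 ∨ 0 ≤ v x := fun x => Iff.rfl
  have hiff : ∀ x, x ≠ 0 → (0 ≤ ord P x ↔ 0 ≤ v x) := by
    intro x hx
    have h1 := (ord_spec P).mem x
    rw [hmem] at h1
    constructor
    · intro h
      exact (h1.2 (Or.inr h)).resolve_left hx
    · intro h
      exact (h1.1 (Or.inr h)).resolve_left hx
  have hzero : ∀ x, x ≠ 0 → ord P x = 0 → v x = 0 := by
    intro x hx h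
    have h1 := (hiff x hx).1 h.ge
    have h2 := (hiff x⁻¹ (inv_ne_zero hx)).1 (by rw [ord_inv, h]; rfl)
    rw [DV.one_add_inv hv hx] at h2
    omega
  obtain ⟨u, hu0, hu⟩ := exists_unif P
  have hvu : 0 < v u := by
    have h1 : ¬ (0 ≤ v u⁻¹) := by
      intro h
      have := (hiff u⁻¹ (inv_ne_zero hu0)).2 h
      rw [ord_inv, hu] at this
      omega
    rw [DV.one_add_inv hv hu0] at h1
    omega
  refine ⟨P, (v u).toNat, by omega, fun x => ?_, hmem⟩
  by_cases hx : x = 0
  · rw [hx, hv.zero, ord_zero, mul_zero]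
  have hcast : ((v u).toNat : ℤ) = v u := Int.toNat_of_nonneg hvu.le
  rw [hcast]
  -- `x = u ^ m * w`
  have hpow : ∀ m : ℤ, v (u ^ m) = m * v u := by
    have hnat : ∀ m : ℕ, v (u ^ m) = m * v u := by
      intro m
      induction m with
      | zero => simp [hv.one]
      | succ m ih => rw [pow_succ, hv.mul _ _ (pow_ne_zero _ hu0) hu0, ih]; push_cast; ring
    intro m
    obtain ⟨m, rfl | rfl⟩ := m.eq_nat_or_neg
    · rw [zpow_natCast]; exact hnat m
    · rw [zpow_neg, zpow_natCast, DV.one_add_inv hv (pow_ne_zero _ hu0), hnat m]; ring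
  have hw0 : x * u ^ (-ord P x) ≠ 0 := mul_ne_zero hx (zpow_ne_zero _ hu0)
  have hw : ord P (x * u ^ (-ord P x)) = 0 := by
    rw [ord_mul P hx (zpow_ne_zero _ hu0), ord_zpow, hu]; ring
  have h1 := hzero _ hw0 hw
  rw [hv.mul _ _ hx (zpow_ne_zero _ hu0), hpow] at h1
  linarith

/-- composition of a discrete valuation with a homomorphism of fields -/
lemma DV.comp {F F' : Type*} [Field F] [Field F'] {f : F' → ℤ} (h : DV f) (φ : F →+* F') :
    DV fun x => f (φ x) where
  zero := by rw [map_zero]; exact h.zero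
  mul := fun x y hx hy => by
    rw [map_mul]
    exact h.mul _ _ ((_root_.map_ne_zero _).2 hx) ((_root_.map_ne_zero _).2 hy)
  add := fun x y hx hy hxy => by
    have h1 : φ x + φ y ≠ 0 := by rw [← map_add]; exact (_root_.map_ne_zero _).2 hxy
    rw [map_add]
    exact h.add _ _ ((_root_.map_ne_zero _).2 hx) ((_root_.map_ne_zero _).2 hy) h1

end

end P025H469
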